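import Crest.Agent.R246.D.Gk

/-! Row 246, block D: the cutoff and the test field. -/

set_option autoImplicit false
set_option linter.unusedSectionVars false

open MeasureTheory Metric Filter Topology Set Module
open scoped RealInnerProductSpace ENNReal ContDiff Real

noncomputable section

namespace Crest.Agent.R246.D

variable {E : Type} [NormedAddCommGroup E] [InnerProductSpace ℝ E] [FiniteDimensional ℝ E]

theorem ca_grad {ζ : E → ℝ} (h : ContDiff ℝ ∞ ζ) : ContDiff ℝ ∞ (gradient ζ) :=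
  (InnerProductSpace.toDual ℝ E).symm.contDiff.comp (h.fderiv_right (m := ∞) (by simp))

theorem ca_loc {ζ : E → ℝ} {y : E} {t : ℝ} (h : ∀ᶠ x in 𝓝 y, ζ x = t) (w : E) :
    gradient ζ y = 0 ∧ divT (gradient ζ) (y, w) = 0 := by
  have h1 : ∀ᶠ x in 𝓝 y, gradient ζ x = 0 := h.eventually_nhds.mono fun x hx => by
    have : ζ =ᶠ[𝓝 x] fun _ => t := hx
    rw [this.gradient_eq, gradient_fun_const]
  have h2 : gradient ζ =ᶠ[𝓝 y] fun _ => 0 := h1
  refine ⟨h1.self_of_nhds, ?_⟩
  unfold divT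
  simp only
  rw [h2.fderiv_eq]
  simp [trc]

/-- a `ContDiffBump` at `0` with radii `3/4`, `7/8`; `gradient ζ` is smooth with compact support,
`|divT Z (y,w)| ≤ |trc (fderiv Z y)| + ‖fderiv Z y‖` -/
theorem exists_cut : ∃ (ζ : E → ℝ) (C : ℝ), Cut ζ C := by
  let b : ContDiffBump (0 : E) := ⟨3 / 4, 7 / 8, by norm_num, by norm_num⟩
  have h1 : ∀ y : E, ‖y‖ ≤ 3 / 4 → b y = 1 := fun y hy =>
    b.one_of_mem_closedBall (by simpa using hy)
  have h0 : ∀ y : E, 7 / 8 ≤ ‖y‖ → b y = 0 := fun y hy => b.zero_of_le_dist (by simpa using hy)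
  have hl : ∀ y w : E, ‖y‖ < 3 / 4 ∨ 7 / 8 < ‖y‖ →
      gradient b y = 0 ∧ divT (gradient b) (y, w) = 0 := by
    rintro y w (hy | hy)
    · exact ca_loc (((isOpen_lt continuous_norm continuous_const).eventually_mem hy).mono
        fun x hx => h1 x (le_of_lt hx)) w
    · exact ca_loc (((isOpen_lt continuous_const continuous_norm).eventually_mem hy).mono
        fun x hx => h0 x (le_of_lt hx)) w
  have hg : ContDiff ℝ ∞ (gradient b) := ca_grad b.contDiff
  have hF : Continuous (fderiv ℝ (gradient b)) := hg.continuous_fderiv (by simp)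
  have h2 : Continuous (trc : (E →L[ℝ] E) → ℝ) :=
    ((LinearMap.trace ℝ E).comp (ContinuousLinearMap.coeLM ℝ)).continuous_of_finiteDimensional
  obtain ⟨C, hC⟩ := (isCompact_closedBall (0 : E) 1).exists_bound_of_continuousOn
    (f := fun y => ‖gradient b y‖ + (|trc (fderiv ℝ (gradient b) y)| + ‖fderiv ℝ (gradient b) y‖))
    (hg.continuous.norm.add ((h2.comp hF).abs.add hF.norm)).continuousOn
  have hC0 : 0 ≤ C := (norm_nonneg _).trans (hC 0 (by simp))
  refine ⟨b, C, b.contDiff, fun y => b.nonneg, fun y => b.le_one, h1, h0, hC0, fun y => ?_,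
    fun y w hw => ?_, fun y hy => (hl y 0 hy).1, fun y w hy => (hl y w hy).2⟩
  · by_cases hy : ‖y‖ ≤ 1
    · have := (le_abs_self _).trans (hC y (by simpa using hy))
      linarith [abs_nonneg (trc (fderiv ℝ (gradient b) y)), norm_nonneg (fderiv ℝ (gradient b) y)]
    · rw [(hl y 0 (Or.inr (by linarith))).1, norm_zero]
      exact hC0
  · by_cases hy : ‖y‖ ≤ 1
    · have := (le_abs_self _).trans (hC y (by simpa using hy))
      have a1 := abs_real_inner_le_norm w (fderiv ℝ (gradient b) y w)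
      have a2 := (fderiv ℝ (gradient b) y).le_opNorm w
      rw [hw] at a1 a2
      unfold divT
      simp only
      linarith [abs_sub (trc (fderiv ℝ (gradient b) y)) ⟪w, fderiv ℝ (gradient b) y w⟫,
        norm_nonneg (gradient b y)]
    · rw [(hl y w (Or.inr (by linarith))).2, abs_zero]
      exact hC0

theorem Cut.hasCompactSupport {ζ : E → ℝ} {C : ℝ} (h : Cut ζ C) : HasCompactSupport ζ := by
  refine HasCompactSupport.intro (isCompact_closedBall (0 : E) 1) fun y hy => h.zero y ?_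
  have : ¬ ‖y‖ ≤ 1 := by simpa using hy
  linarith

theorem Cut.contDiff_grad {ζ : E → ℝ} {C : ℝ} (h : Cut ζ C) : ContDiff ℝ ∞ (gradient ζ) := by
  exact ca_grad h.smooth

theorem cb_trc_add (A B : E →L[ℝ] E) : trc (A + B) = trc A + trc B := by
  simp [trc]

theorem cb_trc_sub (A B : E →L[ℝ] E) : trc (A - B) = trc A - trc B := by
  simp [trc]

theorem cb_trc_smul (t : ℝ) (A : E →L[ℝ] E) : trc (t • A) = t * trc A := by
  simp [trc]

theorem cb_trc_smulRight (L : E →L[ℝ] ℝ) (v : E) : trc (L.smulRight v) = L v := by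
  unfold trc
  exact LinearMap.trace_smulRight (L : E →ₗ[ℝ] ℝ) v

/-- product rule (the trace of `smulRight` is the evaluation) -/
theorem divT_smul {φ : E → ℝ} {Y : E → E} {y : E} (w : E) (hφ : DifferentiableAt ℝ φ y)
    (hY : DifferentiableAt ℝ Y y) :
    divT (fun x => φ x • Y x) (y, w) =
      φ y * divT Y (y, w) + fderiv ℝ φ y (Y y) - fderiv ℝ φ y w * ⟪w, Y y⟫ := by
  unfold divT
  simp only
  rw [fderiv_fun_smul hφ hY, cb_trc_add, cb_trc_smul, cb_trc_smulRight]
  simp only [add_apply, smul_apply, ContinuousLinearMap.smulRight_apply, inner_add_right,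
    inner_smul_right]
  ring

theorem divT_sub {X Y : E → E} {y : E} (w : E) (hX : DifferentiableAt ℝ X y)
    (hY : DifferentiableAt ℝ Y y) :
    divT (fun x => X x - Y x) (y, w) = divT X (y, w) - divT Y (y, w) := by
  unfold divT
  simp only
  rw [fderiv_fun_sub hX hY, cb_trc_sub]
  simp only [sub_apply, inner_sub_right]
  ring

theorem divT_const (a y w : E) : divT (fun _ => a) (y, w) = 0 := by
  simp [divT, trc]

theorem divT_sub_const {d : ℕ} (hE : finrank ℝ E = d + 1) (q y : E) {w : E} (hw : ‖w‖ = 1) :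
    divT (fun x => x - q) (y, w) = d := by
  have h : fderiv ℝ (fun x : E => x - q) y = ContinuousLinearMap.id ℝ E :=
    ((hasFDerivAt_id y).sub_const q).fderiv
  unfold divT
  simp only
  rw [h]
  simp [trc, hE, hw]

/-- the test field `f ∇(ζ G) - ζ G ∇f` for `f = ⟪a,·⟫ + c` -/
def tf (d : ℕ) (ζ : E → ℝ) (a : E) (c : ℝ) (q : E) (r : ℝ) (y : E) : E :=
  ((⟪a, y⟫ + c) * gk d q r y) • gradient ζ y -
    ((⟪a, y⟫ + c) * ζ y * gk d q r y / r ^ 2) • (y - q) - (ζ y * gk d q r y) • a

theorem contDiff_tf {ζ : E → ℝ} {C : ℝ} (h : Cut ζ C) (d : ℕ) (a : E) (c : ℝ) (q : E) (r : ℝ) :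
    ContDiff ℝ 1 (tf d ζ a c q r) := by
  have hG : ContDiff ℝ 1 (gk d q r) := (contDiff_gk d q r).of_le (by simp)
  have hz : ContDiff ℝ 1 ζ := h.smooth.of_le (by simp)
  have hZ : ContDiff ℝ 1 (gradient ζ) := h.contDiff_grad.of_le (by simp)
  have hf : ContDiff ℝ 1 fun y : E => ⟪a, y⟫ + c := (innerSL ℝ a).contDiff.add contDiff_const
  exact (((hf.mul hG).smul hZ).sub ((((hf.mul hz).mul hG).div_const _).smul
    (contDiff_id.sub contDiff_const))).sub ((hz.mul hG).smul contDiff_const)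

theorem hasCompactSupport_tf {ζ : E → ℝ} {C : ℝ} (h : Cut ζ C) (d : ℕ) (a : E) (c : ℝ) (q : E)
    (r : ℝ) : HasCompactSupport (tf d ζ a c q r) := by
  refine HasCompactSupport.intro (isCompact_closedBall (0 : E) 1) fun y hy => ?_
  have : ¬ ‖y‖ ≤ 1 := by simpa using hy
  simp [tf, h.zero y (by linarith), h.grad_zero y (Or.inr (by linarith))]

/-- `divT_sub`, `divT_smul`, `hasFDerivAt_gk`; the terms containing `a` cancel -/
theorem divT_tf {ζ : E → ℝ} {C : ℝ} (h : Cut ζ C) {d : ℕ} (hE : finrank ℝ E = d + 1) (a : E)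
    (c : ℝ) (q : E) {r : ℝ} (hr : 0 < r) (y : E) {w : E} (hw : ‖w‖ = 1) :
    divT (tf d ζ a c q r) (y, w) = (⟪a, y⟫ + c) * gk d q r y *
      (divT (gradient ζ) (y, w) -
        2 * (⟪y - q, gradient ζ y⟫ - ⟪w, y - q⟫ * ⟪w, gradient ζ y⟫) / r ^ 2 +
        ζ y * (-(d : ℝ) / r ^ 2 + (‖y - q‖ ^ 2 - ⟪w, y - q⟫ ^ 2) / r ^ 4)) := by
  have hG := hasFDerivAt_gk d q hr y
  have hf : HasFDerivAt (fun x : E => ⟪a, x⟫ + c) (innerSL ℝ a) y :=
    (innerSL ℝ a).hasFDerivAt.add_const c
  have hz : HasFDerivAt ζ (innerSL ℝ (gradient ζ y)) y :=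
    (h.smooth.differentiable (by simp) y).hasGradientAt.hasFDerivAt
  have hZ : DifferentiableAt ℝ (gradient ζ) y := h.contDiff_grad.differentiable (by simp) y
  have hB : DifferentiableAt ℝ (fun x : E => x - q) y := by fun_prop
  have h1 := hf.fun_mul hG
  have h2 := ((hf.fun_mul hz).fun_mul hG).mul_const (r ^ 2)⁻¹
  have h3 := hz.fun_mul hG
  have e : tf d ζ a c q r = fun x => (((⟪a, x⟫ + c) * gk d q r x) • gradient ζ x -
      ((⟪a, x⟫ + c) * ζ x * gk d q r x * (r ^ 2)⁻¹) • (x - q)) - (ζ x * gk d q r x) • a := by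
    funext x
    simp only [tf, div_eq_mul_inv]
  rw [e, divT_sub w ((h1.differentiableAt.fun_smul hZ).fun_sub (h2.differentiableAt.fun_smul hB))
      (h3.differentiableAt.fun_smul (differentiableAt_const a)),
    divT_sub w (h1.differentiableAt.fun_smul hZ) (h2.differentiableAt.fun_smul hB),
    divT_smul w h1.differentiableAt hZ, divT_smul w h2.differentiableAt hB,
    divT_smul w h3.differentiableAt (differentiableAt_const a), divT_const,
    divT_sub_const hE q y hw, h1.fderiv, h2.fderiv, h3.fderiv]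
  simp only [add_apply, smul_apply, innerSL_apply_apply, smul_eq_mul, real_inner_self_eq_norm_sq,
    real_inner_comm w, real_inner_comm (gradient ζ y) a, real_inner_comm (gradient ζ y) (y - q),
    real_inner_comm a (y - q)]
  field_simp
  ring

end Crest.Agent.R246.D
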