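import Crest.Agent.R246.Defs

/-!
# Row 246, block D (Allard): definitions and plan (architect helper89)

No compactness, no PDE.  `G = gk d q r`, `ζ` a fixed cutoff (`Cut`), `f = ⟪a,·⟫ + c` affine,
`Ph d ζ μ f q r = ∫ f ζ G dμ`.  Testing stationarity with `f ∇(ζ G) - ζ G ∇f` gives
`∂_r Ph = ∫ f ζ ⟪w,y-q⟫² G / r³ + O(sup|f| r³)` (`WM`), so `Ph` is almost monotone for `f ≥ 0`.
* mean value inequality `f q ≤ Ph f q R + K M R⁴` on the support (`Lower 1`);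
* Harnack: `f₊ = h - a`, `f₋ = b - h`, `f₊ + f₋ = b - a`, `Θ < 2` (`Harn`);
* the monotonicity defect is small at flat points (`StCacc`, `StMono`; `Dft`), so `Ph` is almost
  constant in `r`; Taylor expansion in `q` at a fixed scale improves the flatness (`Imp`);
* iteration (`Iter`) and the graph (`Graph`) are statements about sets.
-/

set_option autoImplicit false

open MeasureTheory Metric Filter Topology Set Module
open scoped RealInnerProductSpace ENNReal ContDiff Real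

noncomputable section

namespace Crest.Agent.R246.D

variable {E : Type} [NormedAddCommGroup E] [InnerProductSpace ℝ E] [FiniteDimensional ℝ E]

/-- cutoff: `1` on `B_{3/4}`, `0` off `B_{7/8}`, first and second derivatives bounded by `C` -/
structure Cut (ζ : E → ℝ) (C : ℝ) : Prop where
  smooth : ContDiff ℝ ∞ ζ
  nonneg : ∀ y, 0 ≤ ζ y
  le_one : ∀ y, ζ y ≤ 1
  one : ∀ y, ‖y‖ ≤ 3 / 4 → ζ y = 1
  zero : ∀ y, 7 / 8 ≤ ‖y‖ → ζ y = 0
  C_nonneg : 0 ≤ C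
  grad_le : ∀ y, ‖gradient ζ y‖ ≤ C
  div_le : ∀ y w, ‖w‖ = 1 → |divT (gradient ζ) (y, w)| ≤ C
  grad_zero : ∀ y, ‖y‖ < 3 / 4 ∨ 7 / 8 < ‖y‖ → gradient ζ y = 0
  div_zero : ∀ y w, ‖y‖ < 3 / 4 ∨ 7 / 8 < ‖y‖ → divT (gradient ζ) (y, w) = 0

/-- oscillation of `⟪e,·⟫` on `S ∩ ball q s` is at most `D` -/
def Osc (S : Set E) (q : E) (s : ℝ) (e : E) (D : ℝ) : Prop :=
  ∀ y ∈ S, ∀ y' ∈ S, dist y q < s → dist y' q < s → ⟪e, y⟫ - ⟪e, y'⟫ ≤ D

/-- improvement of flatness -/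
def IF (S : Set E) (κ C ε₀ : ℝ) : Prop :=
  ∀ p ∈ S, ∀ (r : ℝ) (e : E) (ε : ℝ), 0 < r → ‖e‖ = 1 → 0 < ε → ε ≤ ε₀ → FlatAt S p r e ε →
    ∃ e' : E, ‖e'‖ = 1 ∧ ‖e' - e‖ ≤ C * ε ∧ FlatAt S p (κ * r) e' (ε / 2)

/-- no holes at flat points -/
def FL (S : Set E) (c ε₁ : ℝ) : Prop :=
  ∀ p ∈ S, ∀ (r : ℝ) (e : E), 0 < r → ‖e‖ = 1 → FlatAt S p r e ε₁ →
    ∀ x : E, ⟪e, x⟫ = 0 → ‖x‖ = c * r → ∃ y ∈ S, ‖y - (p + x)‖ ≤ ‖x‖ / 2

variable [MeasurableSpace E] [BorelSpace E]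

/-- the class of Allard's theorem -/
structure Al (d : ℕ) (Θ : ℝ) (V : Measure (E × E)) : Prop extends SV d V Θ where
  low : Lower d V.fst 1

/-- weighted, localised density ratio -/
def Ph (d : ℕ) (ζ : E → ℝ) (μ : Measure E) (f : E → ℝ) (q : E) (r : ℝ) : ℝ :=
  ∫ y, f y * ζ y * gk d q r y ∂μ

end Crest.Agent.R246.D
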