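import Crest.Agent.R246.D.Defs
import Crest.Agent.R246.C2.Resc

/-! Row 246, block D: rescaling. -/

set_option autoImplicit false
set_option linter.unusedSectionVars false

open MeasureTheory Metric Filter Topology Set Module
open scoped RealInnerProductSpace ENNReal ContDiff Real

noncomputable section

namespace Crest.Agent.R246.D

variable {E : Type} [NormedAddCommGroup E] [InnerProductSpace ℝ E] [FiniteDimensional ℝ E]
  [MeasurableSpace E] [BorelSpace E]

/-- `V' = map (s⁻¹ (y - p), w) (s^{-d} V)`; `gk d q r (s⁻¹ (y - p)) = s^d gk d (p + s q) (s r) y` -/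
theorem Al.rescale {d : ℕ} {Θ : ℝ} {V : Measure (E × E)} (h : Al d Θ V) (p : E) {s : ℝ}
    (hs : 0 < s) : ∃ V' : Measure (E × E), Al d Θ V' ∧
      ∀ y, y ∈ V'.fst.support ↔ p + s • y ∈ V.fst.support := by
  exact ⟨C2.resc d p s V, ⟨C2.SV.resc h.toSV p hs, C2.Lower.resc h.low p hs⟩,
    fun _ => C2.mem_support_resc hs⟩

end Crest.Agent.R246.D
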