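import Crest.Agent.R246.D.WM
import Crest.Agent.R246.D.Resc

/-! Row 246, block D: the monotonicity defect at flat points; no holes. -/

set_option autoImplicit false
set_option linter.unusedSectionVars false

open MeasureTheory Metric Filter Topology Set Module
open scoped RealInnerProductSpace ENNReal ContDiff Real

noncomputable section

namespace Crest.Agent.R246.D

variable {E : Type} [NormedAddCommGroup E] [InnerProductSpace ℝ E] [FiniteDimensional ℝ E]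
  [MeasurableSpace E] [BorelSpace E]

/-- inside `B_1` the height is `≤ 2ε`, outside use `gk_poly`, `gk_tail` -/
theorem hx_le (d : ℕ) : ∃ K : ℝ, 0 ≤ K ∧ ∀ V : Measure (E × E), SV d V 2 →
    ∀ (e q : E) (ε r : ℝ), ‖e‖ = 1 → ‖q‖ ≤ 1 / 4 → |⟪e, q⟫| ≤ ε → 0 < r →
      (∀ y ∈ V.fst.support, ‖y‖ < 1 → |⟪e, y⟫| ≤ ε) →
      hx d V.fst q r e ≤ K * (ε ^ 2 / r ^ 2 + r ^ 4) := by
  obtain ⟨T₀, h0, H0⟩ := gk_poly (E := E) d 0 (show (1 : ℝ) < 4 by norm_num)
  obtain ⟨T₁, h1, H1⟩ := gk_poly (E := E) d 2 one_lt_two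
  obtain ⟨T₂, h2, H2⟩ := gk_tail (E := E) d 4
  refine ⟨2 * (4 * T₀ + 4 * T₁ * T₂ * 8 ^ 4), by positivity,
    fun V hV e q ε r he hq hε hr hf => ?_⟩
  have a := abs_integral_le hV (F := fun y => ⟪e, y - q⟫ ^ 2 / r ^ 2 * gk d q (2 * r) y)
    (K := 4 * T₀ * (ε ^ 2 / r ^ 2) + 4 * T₁ * T₂ * 8 ^ 4 * r ^ 4) (p := q)
    (show 0 < 8 * r by positivity) (by positivity) fun y hy => by
      have g2 := gk_pos d q (show 0 < 2 * r by positivity) y
      have g8 := gk_pos d q (show 0 < 8 * r by positivity) y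
      rw [abs_of_nonneg (by positivity), add_mul]
      by_cases hy' : ‖y‖ < 1
      · have b1 := H0 q y (2 * r) (by positivity)
        rw [pow_zero, one_mul, show 4 * (2 * r) = 8 * r by ring] at b1
        have b2 : ⟪e, y - q⟫ ^ 2 ≤ 4 * ε ^ 2 := by
          have c1 := abs_le.1 (hf y hy hy')
          have c2 := abs_le.1 hε
          rw [inner_sub_right]
          nlinarith [c1.1, c1.2, c2.1, c2.2]
        have b3 : ⟪e, y - q⟫ ^ 2 / r ^ 2 * gk d q (2 * r) y ≤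
            4 * ε ^ 2 / r ^ 2 * (T₀ * gk d q (8 * r) y) := by gcongr
        refine le_add_of_le_of_nonneg (b3.trans (le_of_eq (by ring))) (by positivity)
      · have b1 := H1 q y (2 * r) (by positivity)
        have b2 := H2 q y (2 * (2 * r)) (1 / 2) (by positivity) (by norm_num)
          (by linarith [norm_sub_norm_le y q])
        rw [show 2 * (2 * (2 * r)) = 8 * r by ring, show 2 * (2 * r) / (1 / 2) = 8 * r by ring] at b2
        have b3 : ⟪e, y - q⟫ ^ 2 ≤ ‖y - q‖ ^ 2 := by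
          have := abs_real_inner_le_norm e (y - q)
          rw [he, one_mul] at this
          rw [← sq_abs]
          gcongr
        have b4 : ⟪e, y - q⟫ ^ 2 / r ^ 2 * gk d q (2 * r) y ≤
            ‖y - q‖ ^ 2 / r ^ 2 * gk d q (2 * r) y := by gcongr
        have b5 : ‖y - q‖ ^ 2 / r ^ 2 = 4 * (‖y - q‖ / (2 * r)) ^ 2 := by field_simp; ring
        rw [b5] at b4
        refine le_add_of_nonneg_of_le (by positivity) ?_
        nlinarith [mul_le_mul_of_nonneg_left b2 h1]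
  refine ((le_abs_self _).trans a).trans ?_
  have : 0 ≤ T₀ * r ^ 4 := by positivity
  have : 0 ≤ T₁ * T₂ * (ε ^ 2 / r ^ 2) := by positivity
  nlinarith

/-- `⟪w,v⟫² ≤ 2 (1 - ⟪w,e⟫²) |v|² + 2 ⟪e,v⟫²` -/
theorem inner_sq_le {e w : E} (he : ‖e‖ = 1) (hw : ‖w‖ = 1) (v : E) :
    ⟪w, v⟫ ^ 2 ≤ 2 * (1 - ⟪w, e⟫ ^ 2) * ‖v‖ ^ 2 + 2 * ⟪e, v⟫ ^ 2 := by
  have h1 : ‖w - ⟪w, e⟫ • e‖ ^ 2 = 1 - ⟪w, e⟫ ^ 2 := by
    rw [norm_sub_sq_real, inner_smul_right, norm_smul, he, hw, Real.norm_eq_abs, mul_one, sq_abs]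
    ring
  have h2 : ⟪w - ⟪w, e⟫ • e, v⟫ ^ 2 ≤ (1 - ⟪w, e⟫ ^ 2) * ‖v‖ ^ 2 := by
    rw [← h1, ← mul_pow, ← sq_abs]
    gcongr
    exact abs_real_inner_le_norm _ _
  rw [inner_sub_left, real_inner_smul_left] at h2
  have h3 : 0 ≤ (1 - ⟪w, e⟫ ^ 2) * ⟪e, v⟫ ^ 2 := by rw [← h1]; positivity
  nlinarith [sq_nonneg (⟪w, v⟫ - 2 * (⟪w, e⟫ * ⟪e, v⟫))]

/-- the integrand of `StMono` is at most `K hx / r` (`inner_sq_le`, `gk_poly`, `StCacc`) -/
theorem mono_integrand_le (hB : Bas) (d : ℕ) : ∃ K : ℝ, 0 ≤ K ∧ ∀ V : Measure (E × E), SV0 d V →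
    ∀ (e q : E) (r : ℝ), ‖e‖ = 1 → 0 < r →
      ∫ z, ⟪z.2, z.1 - q⟫ ^ 2 / r ^ 3 * gk d q r z.1 ∂V ≤ K * hx d V.fst q r e / r := by
  obtain ⟨K, hK⟩ := hB.cacc E d
  obtain ⟨T₀, h0, H0⟩ := gk_poly (E := E) d 0 one_lt_two
  obtain ⟨T₁, h1, H1⟩ := gk_poly (E := E) d 2 (show (1 : ℝ) < 3 / 2 by norm_num)
  obtain ⟨T₂, h2, H2⟩ := gk_poly (E := E) d 2 one_lt_two
  refine ⟨2 * T₁ * |K| + 2 * T₀, by positivity, fun V hV e q r he hr => ?_⟩
  have hc : Continuous fun y => ⟪e, y - q⟫ ^ 2 / r ^ 2 * gk d q (2 * r) y :=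
    C2.continuous_hx d q r e
  have i1 : Integrable (fun z : E × E => (1 - ⟪z.2, e⟫ ^ 2) * gk d q (3 / 2 * r) z.1) V := by
    refine (wma_int (continuous_gk d q _) (hV.integ q (3 / 2 * r) (by positivity))).mono'
      (Continuous.aestronglyMeasurable
        (Continuous.mul (by fun_prop) ((continuous_gk d q _).comp continuous_fst))) ?_
    filter_upwards [hV.unit] with z hz
    have g := gk_pos d q (show 0 < 3 / 2 * r by positivity) z.1
    have a := abs_real_inner_le_norm z.2 e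
    rw [hz, he, one_mul, ← sq_le_one_iff_abs_le_one] at a
    rw [Real.norm_of_nonneg (mul_nonneg (by linarith) g.le)]
    nlinarith [sq_nonneg ⟪z.2, e⟫]
  have i2 : Integrable (fun z : E × E => ⟪e, z.1 - q⟫ ^ 2 / r ^ 2 * gk d q (2 * r) z.1) V := by
    refine wma_int hc (integrable_of_le hV hc (K := 4 * T₂) (p := q)
      (show 0 < 2 * (2 * r) by positivity) fun y _ => ?_)
    have g := gk_pos d q (show 0 < 2 * r by positivity) y
    have b1 := H2 q y (2 * r) (by positivity)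
    have b3 : ⟪e, y - q⟫ ^ 2 ≤ ‖y - q‖ ^ 2 := by
      have := abs_real_inner_le_norm e (y - q)
      rw [he, one_mul] at this
      rw [← sq_abs]
      gcongr
    have b4 : ⟪e, y - q⟫ ^ 2 / r ^ 2 * gk d q (2 * r) y ≤
        ‖y - q‖ ^ 2 / r ^ 2 * gk d q (2 * r) y := by gcongr
    have b5 : ‖y - q‖ ^ 2 / r ^ 2 = 4 * (‖y - q‖ / (2 * r)) ^ 2 := by field_simp; ring
    rw [b5] at b4
    rw [abs_of_nonneg (by positivity)]
    linarith
  have hx0 : 0 ≤ hx d V.fst q r e := integral_nonneg fun y => by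
    have := gk_pos d q (show 0 < 2 * r by positivity) y
    positivity
  have a1 : ∫ z, ⟪z.2, z.1 - q⟫ ^ 2 / r ^ 3 * gk d q r z.1 ∂V ≤
      ∫ z, (2 * T₁ / r * ((1 - ⟪z.2, e⟫ ^ 2) * gk d q (3 / 2 * r) z.1) +
        2 * T₀ / r * (⟪e, z.1 - q⟫ ^ 2 / r ^ 2 * gk d q (2 * r) z.1)) ∂V := by
    refine integral_mono_of_nonneg (Eventually.of_forall fun z => ?_)
      ((i1.const_mul _).add (i2.const_mul _)) ?_
    · have := gk_pos d q hr z.1
      simp only [Pi.zero_apply]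
      positivity
    · filter_upwards [hV.unit] with z hz
      have g := gk_pos d q hr z.1
      have a := abs_real_inner_le_norm z.2 e
      rw [hz, he, one_mul, ← sq_le_one_iff_abs_le_one, ← sub_nonneg] at a
      have b0 := H0 q z.1 r hr
      rw [pow_zero, one_mul] at b0
      have b1 := mul_le_mul_of_nonneg_left (H1 q z.1 r hr)
        (show 0 ≤ 2 * (1 - ⟪z.2, e⟫ ^ 2) / r by positivity)
      have b2 := mul_le_mul_of_nonneg_left b0 (show 0 ≤ 2 * ⟪e, z.1 - q⟫ ^ 2 / r ^ 3 by positivity)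
      have b3 := mul_le_mul_of_nonneg_right (inner_sq_le he hz (z.1 - q))
        (show 0 ≤ gk d q r z.1 / r ^ 3 by positivity)
      refine (le_of_eq (by ring)).trans (b3.trans ((le_of_eq ?_).trans
        ((add_le_add b1 b2).trans (le_of_eq ?_))))
      · field_simp
      · field_simp
  rw [integral_add (i1.const_mul _) (i2.const_mul _), integral_const_mul, integral_const_mul,
    ← wma_fst hc] at a1
  have a2 := (hK V hV q r e hr he).trans (mul_le_mul_of_nonneg_right (le_abs_self K) hx0)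
  have a3 := mul_le_mul_of_nonneg_left a2 (show 0 ≤ 2 * T₁ / r by positivity)
  refine a1.trans ((add_le_add a3 le_rfl).trans (le_of_eq ?_))
  unfold hx
  ring

/-- `StMono`, `intervalIntegral.norm_integral_le_of_norm_le_const` -/
theorem defect (hB : Bas) {d : ℕ} (hE : finrank ℝ E = d + 1) : ∃ K : ℝ, 0 ≤ K ∧
    ∀ V : Measure (E × E), SV d V 2 → ∀ (e q : E) (ε : ℝ), ‖e‖ = 1 → ‖q‖ ≤ 1 / 4 →
      |⟪e, q⟫| ≤ ε → (∀ y ∈ V.fst.support, ‖y‖ < 1 → |⟪e, y⟫| ≤ ε) →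
      ∀ a b : ℝ, 0 < a → a ≤ b → b ≤ 1 →
        th d V.fst q b - th d V.fst q a ≤ K * (ε ^ 2 / a ^ 3 + b ^ 4) := by
  obtain ⟨K₁, h1, H1⟩ := hx_le (E := E) d
  obtain ⟨K₂, h2, H2⟩ := mono_integrand_le (E := E) hB d
  refine ⟨K₂ * K₁, by positivity, fun V hV e q ε he hq hε hf a b ha hab hb => ?_⟩
  rw [(hB.mono E d hE V hV.toSV0 q a b ha hab).1]
  have h := intervalIntegral.norm_integral_le_of_norm_le_const (a := a) (b := b)
    (f := fun r => ∫ z, ⟪z.2, z.1 - q⟫ ^ 2 / r ^ 3 * gk d q r z.1 ∂V)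
    (C := K₂ * K₁ * (ε ^ 2 / a ^ 3 + b ^ 3)) fun r hr => by
      rw [uIoc_of_le hab] at hr
      have hr0 : 0 < r := ha.trans hr.1
      rw [Real.norm_of_nonneg (integral_nonneg fun z => by
        have := gk_pos d q hr0 z.1
        positivity)]
      refine (H2 V hV.toSV0 e q r he hr0).trans ?_
      have a1 := H1 V hV e q ε r he hq hε hr0 hf
      have a2 : K₂ * hx d V.fst q r e / r ≤ K₂ * (K₁ * (ε ^ 2 / r ^ 2 + r ^ 4)) / r := by gcongr
      have a3 : K₂ * (K₁ * (ε ^ 2 / r ^ 2 + r ^ 4)) / r = K₂ * K₁ * (ε ^ 2 / r ^ 3 + r ^ 3) := by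
        field_simp
      rw [a3] at a2
      refine a2.trans ?_
      have := hr.1.le
      have := hr.2
      gcongr
  rw [Real.norm_eq_abs, abs_of_nonneg (sub_nonneg.2 hab)] at h
  refine ((le_abs_self _).trans h).trans ?_
  rw [mul_assoc]
  refine mul_le_mul_of_nonneg_left ?_ (by positivity)
  have hb0 : 0 < b := by linarith
  have a1 : 0 ≤ ε ^ 2 / a ^ 3 := by positivity
  have a2 : 0 ≤ b ^ 3 := by positivity
  nlinarith [mul_le_mul_of_nonneg_left (show b - a ≤ 1 by linarith) a1,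
    mul_le_mul_of_nonneg_left (show b - a ≤ b by linarith) a2]

theorem exists_small {K δ : ℝ} (hK : 0 ≤ K) (hδ : 0 < δ) {b : ℝ} (hb : 0 < b) :
    ∃ t : ℝ, 0 < t ∧ t ≤ b ∧ K * t ≤ δ := by
  refine ⟨min b (δ / (K + 1)), by positivity, min_le_left _ _, ?_⟩
  have h := min_le_right b (δ / (K + 1))
  rw [le_div_iff₀ (by positivity)] at h
  have : 0 < min b (δ / (K + 1)) := by positivity
  linarith

/-- `th x R ≥ 3/4` by `gk_shift` (`η = 1/3`, radius `R/l`) and `Lower` at `0`; `defect` gives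
`th x r₀ ≥ 1/2`; if the support avoided `ball x (c/2)`, `gk_tail` would give `th x r₀ < 1/2` -/
theorem fill0 (hB : Bas) {d : ℕ} (hE : finrank ℝ E = d + 1) : ∃ c ε₁ : ℝ, 0 < c ∧ c ≤ 1 ∧ 0 < ε₁ ∧
    ∀ V : Measure (E × E), Al d 2 V → (0 : E) ∈ V.fst.support → ∀ e : E, ‖e‖ = 1 →
      (∀ y ∈ V.fst.support, ‖y‖ < 1 → |⟪e, y⟫| ≤ ε₁) →
      ∀ x : E, ⟪e, x⟫ = 0 → ‖x‖ = c → ∃ y ∈ V.fst.support, ‖y - x‖ ≤ c / 2 := by
  obtain ⟨K, hK, H⟩ := defect (E := E) hB hE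
  obtain ⟨c₀, l, hc₀, hl, hs⟩ := gk_shift (E := E) d (show (0 : ℝ) < 1 / 3 by norm_num)
  obtain ⟨T, hT, ht⟩ := gk_tail (E := E) d 1
  obtain ⟨R, hR, hR1, hKR⟩ := exists_small hK (show (0 : ℝ) < 1 / 8 by norm_num) one_pos
  obtain ⟨c, hc, hc1, hc2⟩ : ∃ c : ℝ, 0 < c ∧ c ≤ 1 / 4 ∧ c ≤ c₀ * (R / l) :=
    ⟨min (1 / 4) (c₀ * (R / l)), by positivity, min_le_left _ _, min_le_right _ _⟩
  obtain ⟨r, hr, hrR, hTr⟩ := exists_small (show 0 ≤ 2 * (T / (c / 2)) by positivity)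
    (show (0 : ℝ) < 1 / 4 by norm_num) hR
  refine ⟨c, r ^ 2 * R, hc, by linarith, by positivity, fun V hV h0 e he hf x hx hxc => ?_⟩
  by_contra! hn
  have a1 := H V hV.toSV e x _ he (by linarith) (by rw [hx, abs_zero]; positivity) hf r R hr hrR hR1
  have a2 : th d V.fst 0 (R / l) ≤ (1 + 1 / 3) * th d V.fst x R := by
    unfold th
    rw [← integral_const_mul]
    refine integral_mono (hV.integ _ _ (by positivity)) ((hV.integ _ _ hR).const_mul _) fun y => ?_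
    have := hs x 0 y (R / l) (by positivity) (by rw [zero_sub, norm_neg]; linarith)
    rwa [mul_div_cancel₀ _ (by positivity : l ≠ 0)] at this
  have a3 := hV.low 0 h0 (R / l) (by positivity)
  have a4 := abs_integral_le hV.toSV (F := gk d x r) (K := T * (r / (c / 2)) ^ 1) (p := x)
    (show 0 < 2 * r by positivity) (by positivity) fun y hy => by
      rw [abs_of_pos (gk_pos d x hr y)]
      exact ht x y r (c / 2) hr (by positivity) (hn y hy).le
  have a5 : th d V.fst x r ≤ 1 / 4 :=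
    ((le_abs_self _).trans a4).trans ((le_of_eq (by ring)).trans hTr)
  have a6 : (r ^ 2 * R) ^ 2 / r ^ 3 ≤ R := by
    rw [show (r ^ 2 * R) ^ 2 / r ^ 3 = r * R * R by field_simp]
    exact mul_le_of_le_one_left hR.le (mul_le_one₀ (by linarith) hR.le hR1)
  have a7 := pow_le_of_le_one hR.le hR1 (n := 4) (by norm_num)
  nlinarith [mul_le_mul_of_nonneg_left a6 hK, mul_le_mul_of_nonneg_left a7 hK]

/-- `Al.rescale` -/
theorem fill (hB : Bas) {d : ℕ} (hE : finrank ℝ E = d + 1) : ∃ c ε₁ : ℝ, 0 < c ∧ c ≤ 1 ∧ 0 < ε₁ ∧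
    ∀ V : Measure (E × E), Al d 2 V → FL V.fst.support c ε₁ := by
  obtain ⟨c, ε₁, hc, hc1, hε, H⟩ := fill0 (E := E) hB hE
  refine ⟨c, ε₁, hc, hc1, hε, fun V hV p hp r e hr he hf x hx hxc => ?_⟩
  obtain ⟨V', hV', hS⟩ := hV.rescale p hr
  obtain ⟨y, hy, h⟩ := H V' hV' ((hS 0).2 (by rwa [smul_zero, add_zero])) e he (fun y hy hy' => by
      have := hf _ ((hS y).1 hy) (by
        rw [dist_eq_norm, add_sub_cancel_left, norm_smul, Real.norm_of_nonneg hr.le]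
        exact mul_lt_of_lt_one_right hr hy')
      rwa [add_sub_cancel_left, inner_smul_right, abs_mul, abs_of_pos hr, mul_comm,
        mul_le_mul_iff_left₀ hr] at this)
    (r⁻¹ • x) (by rw [inner_smul_right, hx, mul_zero])
    (by rw [norm_smul, hxc, Real.norm_of_nonneg (by positivity)]; field_simp)
  refine ⟨_, (hS y).1 hy, ?_⟩
  have e1 : p + r • y - (p + x) = r • (y - r⁻¹ • x) := by
    rw [smul_sub, smul_inv_smul₀ hr.ne']; abel
  rw [e1, norm_smul, Real.norm_of_nonneg hr.le, hxc]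
  nlinarith

end Crest.Agent.R246.D
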