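import Crest.Agent.R246.D.Defs

/-! Row 246, block D: pointwise facts on the Gaussian kernel. -/

set_option autoImplicit false
set_option linter.unusedSectionVars false

open MeasureTheory Metric Filter Topology Set Module
open scoped RealInnerProductSpace ENNReal ContDiff Real

noncomputable section

namespace Crest.Agent.R246.D

variable {E : Type} [NormedAddCommGroup E] [InnerProductSpace ℝ E] [FiniteDimensional ℝ E]

theorem gk_pos (d : ℕ) (p : E) {r : ℝ} (hr : 0 < r) (y : E) : 0 < gk d p r y := by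
  unfold gk; positivity

theorem contDiff_gk (d : ℕ) (p : E) (r : ℝ) : ContDiff ℝ ∞ (gk d p r) := by
  unfold gk
  refine contDiff_const.mul (Real.contDiff_exp.comp ?_)
  exact ((contDiff_norm_sq ℝ).comp (contDiff_id.sub contDiff_const)).neg.div_const _

theorem continuous_gk (d : ℕ) (p : E) (r : ℝ) : Continuous (gk d p r) :=
  (contDiff_gk d p r).continuous

theorem hasFDerivAt_gk (d : ℕ) (p : E) {r : ℝ} (hr : 0 < r) (y : E) :
    HasFDerivAt (gk d p r) ((-(gk d p r y / r ^ 2)) • innerSL ℝ (y - p)) y := by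
  have h1 : HasFDerivAt (fun y : E => ‖y - p‖ ^ 2) (2 • innerSL ℝ (y - p)) y := by
    simpa using ((hasFDerivAt_id y).sub_const p).norm_sq
  have h2 := ((h1.neg.mul_const (2 * r ^ 2)⁻¹).exp).const_mul ((√(2 * π) * r)⁻¹ ^ d)
  have e : gk d p r = fun y : E =>
      (√(2 * π) * r)⁻¹ ^ d * Real.exp (-‖y - p‖ ^ 2 * (2 * r ^ 2)⁻¹) := by
    funext y; simp only [gk, div_eq_mul_inv]
  rw [e]
  refine h2.congr_fderiv ?_
  ext v
  simp only [smul_apply, neg_apply, smul_eq_mul,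
    nsmul_eq_mul, Pi.neg_apply]
  field_simp
  push_cast
  ring

theorem hasDerivAt_gk (d : ℕ) (p y : E) {r : ℝ} (hr : 0 < r) :
    HasDerivAt (fun s => gk d p s y) ((-(d : ℝ) / r + ‖y - p‖ ^ 2 / r ^ 3) * gk d p r y) r := by
  have hc : (0 : ℝ) < √(2 * π) := by positivity
  have h1 : HasDerivAt (fun s : ℝ => (√(2 * π) * s)⁻¹ ^ d)
      (-(d : ℝ) / r * (√(2 * π) * r)⁻¹ ^ d) r := by
    have := (((hasDerivAt_id' r).const_mul √(2 * π)).inv (by positivity)).pow d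
    refine this.congr_deriv ?_
    rcases d with _ | d
    · simp
    · simp only [Pi.inv_apply, Nat.add_sub_cancel, pow_succ]
      field_simp
  have h2 : HasDerivAt (fun s : ℝ => -‖y - p‖ ^ 2 / (2 * s ^ 2)) (‖y - p‖ ^ 2 / r ^ 3) r := by
    have := (((hasDerivAt_pow 2 r).const_mul 2).inv (by positivity)).const_mul (-‖y - p‖ ^ 2)
    refine (this.congr_deriv ?_).congr_of_eventuallyEq (Eventually.of_forall fun s => ?_)
    · field_simp
      push_cast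
      ring
    · simp [div_eq_mul_inv]
  refine (h1.mul h2.exp).congr_deriv ?_
  unfold gk
  ring

theorem gka_poly (k : ℕ) {b : ℝ} (hb : 0 < b) : ∃ C : ℝ, 0 ≤ C ∧ ∀ s : ℝ, 0 ≤ s →
    s ^ k * Real.exp (-(b * s ^ 2)) ≤ C := by
  refine ⟨1 + k.factorial / b ^ k, by positivity, fun s hs => ?_⟩
  have he : Real.exp (-(b * s ^ 2)) ≤ 1 := Real.exp_le_one_iff.2 (by nlinarith [sq_nonneg s])
  have h0 : (0 : ℝ) ≤ k.factorial / b ^ k := by positivity
  rcases le_total s 1 with h | h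
  · have := pow_le_one₀ (n := k) hs h
    have := mul_le_mul this he (Real.exp_pos _).le zero_le_one
    linarith
  · have h1 := Real.pow_div_factorial_le_exp (b * s ^ 2) (by positivity) k
    have h2 : s ^ k ≤ (s ^ 2) ^ k := pow_le_pow_left₀ hs (by nlinarith) k
    have h3 : (s ^ 2) ^ k * Real.exp (-(b * s ^ 2)) ≤ k.factorial / b ^ k := by
      rw [Real.exp_neg, ← div_eq_mul_inv, div_le_div_iff₀ (Real.exp_pos _) (by positivity)]
      rw [div_le_iff₀ (by positivity), mul_pow] at h1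
      nlinarith
    nlinarith [mul_le_mul_of_nonneg_right h2 (Real.exp_pos (-(b * s ^ 2))).le]

/-- polynomial weights are absorbed: `s^k exp(-s²/2) ≤ C exp(-s²/(2 l²))` -/
theorem gk_poly (d k : ℕ) {l : ℝ} (hl : 1 < l) : ∃ C : ℝ, 0 ≤ C ∧ ∀ (p y : E) (r : ℝ), 0 < r →
    (‖y - p‖ / r) ^ k * gk d p r y ≤ C * gk d p (l * r) y := by
  have hl0 : 0 < l := by linarith
  have hb : 0 < (1 - 1 / l ^ 2) / 2 := by
    have : 1 / l ^ 2 < 1 := by rw [div_lt_one (by positivity)]; nlinarith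
    linarith
  obtain ⟨C, hC, h⟩ := gka_poly k hb
  refine ⟨C * l ^ d, by positivity, fun p y r hr => ?_⟩
  have h1 := h (‖y - p‖ / r) (by positivity)
  have e1 : Real.exp (-‖y - p‖ ^ 2 / (2 * r ^ 2)) =
      Real.exp (-((1 - 1 / l ^ 2) / 2 * (‖y - p‖ / r) ^ 2)) *
        Real.exp (-‖y - p‖ ^ 2 / (2 * (l * r) ^ 2)) := by
    rw [← Real.exp_add]; congr 1; field_simp; ring
  have e2 : (√(2 * π) * r)⁻¹ ^ d = l ^ d * (√(2 * π) * (l * r))⁻¹ ^ d := by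
    rw [← mul_pow]; congr 1; field_simp
  unfold gk
  rw [e1, e2]
  have h2 : 0 ≤ l ^ d * ((√(2 * π) * (l * r))⁻¹ ^ d *
      Real.exp (-‖y - p‖ ^ 2 / (2 * (l * r) ^ 2))) := by positivity
  nlinarith [mul_le_mul_of_nonneg_right h1 h2]

/-- tails (`gk_poly`) -/
theorem gk_tail (d k : ℕ) : ∃ C : ℝ, 0 ≤ C ∧ ∀ (p y : E) (r s : ℝ), 0 < r → 0 < s →
    s ≤ ‖y - p‖ → gk d p r y ≤ C * (r / s) ^ k * gk d p (2 * r) y := by
  obtain ⟨C, hC, h⟩ := gk_poly (E := E) d k one_lt_two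
  refine ⟨C, hC, fun p y r s hr hs hle => ?_⟩
  have h1 := h p y r hr
  have h2 : (s / r) ^ k ≤ (‖y - p‖ / r) ^ k := by gcongr
  have h3 := (mul_le_mul_of_nonneg_right h2 (gk_pos d p hr y).le).trans h1
  have h4 : (r / s) ^ k * (s / r) ^ k = 1 := by rw [← mul_pow]; field_simp; simp
  have h5 := mul_le_mul_of_nonneg_left h3 (show 0 ≤ (r / s) ^ k by positivity)
  rw [← mul_assoc, h4, one_mul] at h5
  linarith

/-- moving the centre: `|y-p|²/l² ≤ |y-q|² + |q-p|²/(l²-1)`; choose `l > 1` with `l^d` close to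
`1`, then `c` small -/
theorem gk_shift (d : ℕ) {η : ℝ} (hη : 0 < η) : ∃ c l : ℝ, 0 < c ∧ 1 < l ∧
    ∀ (p q y : E) (r : ℝ), 0 < r → ‖q - p‖ ≤ c * r →
      gk d q r y ≤ (1 + η) * gk d p (l * r) y := by
  have t1 : Tendsto (fun l : ℝ => l ^ d) (𝓝[>] 1) (𝓝 (1 ^ d)) :=
    ((continuous_pow d).tendsto 1).mono_left nhdsWithin_le_nhds
  obtain ⟨l, hl1, hl⟩ := ((t1.eventually (gt_mem_nhds (show (1 : ℝ) ^ d < 1 + η by
    rw [one_pow]; linarith))).and self_mem_nhdsWithin).exists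
  have hl' : 1 < l := hl
  have hm : 0 < l ^ 2 - 1 := by nlinarith
  have t2 : Tendsto (fun c : ℝ => l ^ d * Real.exp (c ^ 2 / (2 * (l ^ 2 - 1)))) (𝓝[>] 0)
      (𝓝 (l ^ d * Real.exp (0 ^ 2 / (2 * (l ^ 2 - 1))))) :=
    (Continuous.tendsto (by fun_prop) 0).mono_left nhdsWithin_le_nhds
  obtain ⟨c, hc1, hc⟩ := ((t2.eventually (gt_mem_nhds (show l ^ d *
    Real.exp (0 ^ 2 / (2 * (l ^ 2 - 1))) < 1 + η by simpa using hl1))).and
    self_mem_nhdsWithin).exists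
  have hc' : 0 < c := hc
  refine ⟨c, l, hc', hl', fun p q y r hr h => ?_⟩
  have hl0 : 0 < l := by linarith
  have a1 : ‖y - p‖ ≤ ‖y - q‖ + c * r := by
    linarith [norm_sub_le_norm_sub_add_norm_sub y q p]
  have a2 : ‖y - p‖ ^ 2 ≤ (‖y - q‖ + c * r) ^ 2 := by gcongr
  have a3 : (l ^ 2 - 1) * ‖y - p‖ ^ 2 ≤
      l ^ 2 * ((l ^ 2 - 1) * ‖y - q‖ ^ 2 + (c * r) ^ 2) := by
    nlinarith [sq_nonneg ((l ^ 2 - 1) * ‖y - q‖ - c * r), mul_le_mul_of_nonneg_left a2 hm.le]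
  have a4 : -‖y - q‖ ^ 2 / (2 * r ^ 2) ≤
      c ^ 2 / (2 * (l ^ 2 - 1)) + -‖y - p‖ ^ 2 / (2 * (l * r) ^ 2) := by
    rw [div_add_div _ _ (by positivity) (by positivity),
      div_le_div_iff₀ (by positivity) (by positivity)]
    nlinarith [mul_le_mul_of_nonneg_left a3 (show 0 ≤ 4 * r ^ 2 by positivity)]
  have e2 : (√(2 * π) * r)⁻¹ ^ d = l ^ d * (√(2 * π) * (l * r))⁻¹ ^ d := by
    rw [← mul_pow]; congr 1; field_simp
  have a5 := Real.exp_le_exp.2 a4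
  rw [Real.exp_add] at a5
  unfold gk
  rw [e2]
  have h2 : 0 ≤ (√(2 * π) * (l * r))⁻¹ ^ d * Real.exp (-‖y - p‖ ^ 2 / (2 * (l * r) ^ 2)) := by
    positivity
  have h3 := mul_le_mul_of_nonneg_left a5
    (show 0 ≤ l ^ d * (√(2 * π) * (l * r))⁻¹ ^ d by positivity)
  nlinarith [mul_le_mul_of_nonneg_right hc1.le h2]

theorem gkb_exp (u : ℝ) : |Real.exp u - 1 - u| ≤ u ^ 2 * Real.exp |u| := by
  have h1 := Real.add_one_le_exp u
  have h2 : Real.exp u - 1 ≤ u * Real.exp u := by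
    have a := Real.add_one_le_exp (-u)
    have b : Real.exp (-u) * Real.exp u = 1 := by rw [← Real.exp_add]; simp
    nlinarith [Real.exp_pos u]
  rw [abs_of_nonneg (by linarith)]
  rcases le_total 0 u with h | h
  · rw [abs_of_nonneg h]
    nlinarith [mul_le_mul_of_nonneg_left h2 h]
  · have := Real.one_le_exp (abs_nonneg u)
    nlinarith [mul_le_mul_of_nonneg_left h1 (neg_nonneg.2 h), sq_nonneg u]

theorem gkb_real {τ s v : ℝ} (hτ : 0 ≤ τ) (hτ1 : τ ≤ 1) (hs : 0 ≤ s) (hv : |v| ≤ τ * s) :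
    |Real.exp (v - τ ^ 2 / 2) - 1 - v| * Real.exp (-s ^ 2 / 2) ≤
      (Real.exp 8 + 1) * τ ^ 2 * Real.exp (-s ^ 2 / 8) := by
  have h1 := gkb_exp (v - τ ^ 2 / 2)
  have h2 : |v - τ ^ 2 / 2| ≤ τ * (s + 1 / 2) := by
    have := abs_sub v (τ ^ 2 / 2)
    rw [abs_of_nonneg (by positivity : 0 ≤ τ ^ 2 / 2)] at this
    nlinarith
  have h3 : |v - τ ^ 2 / 2| ≤ s + 1 / 2 := h2.trans (mul_le_of_le_one_left (by positivity) hτ1)
  have h4 : (v - τ ^ 2 / 2) ^ 2 ≤ τ ^ 2 * Real.exp (s + 1 / 2) ^ 2 := by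
    rw [← sq_abs, ← mul_pow]
    gcongr
    exact h2.trans (mul_le_mul_of_nonneg_left
      (by linarith [Real.add_one_le_exp (s + 1 / 2)]) hτ)
  have h5 : Real.exp (s + 1 / 2) ^ 2 * Real.exp (s + 1 / 2) * Real.exp (-s ^ 2 / 2) ≤
      Real.exp 8 * Real.exp (-s ^ 2 / 8) := by
    rw [← Real.exp_nat_mul, ← Real.exp_add, ← Real.exp_add, ← Real.exp_add]
    refine Real.exp_le_exp.2 ?_
    push_cast
    nlinarith [sq_nonneg (s - 4)]
  have h6 : Real.exp (-s ^ 2 / 2) ≤ Real.exp (-s ^ 2 / 8) :=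
    Real.exp_le_exp.2 (by nlinarith [sq_nonneg s])
  have h7 : |Real.exp (v - τ ^ 2 / 2) - 1 - v| ≤
      τ ^ 2 * Real.exp (s + 1 / 2) ^ 2 * Real.exp (s + 1 / 2) + τ ^ 2 := by
    have e : Real.exp (v - τ ^ 2 / 2) - 1 - v =
        (Real.exp (v - τ ^ 2 / 2) - 1 - (v - τ ^ 2 / 2)) - τ ^ 2 / 2 := by ring
    have a := abs_sub (Real.exp (v - τ ^ 2 / 2) - 1 - (v - τ ^ 2 / 2)) (τ ^ 2 / 2)
    rw [abs_of_nonneg (by positivity : 0 ≤ τ ^ 2 / 2)] at a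
    have b := mul_le_mul h4 (Real.exp_le_exp.2 h3) (Real.exp_pos _).le (by positivity)
    rw [e]
    nlinarith [sq_nonneg τ]
  have h8 := mul_le_mul_of_nonneg_right h7 (Real.exp_pos (-s ^ 2 / 2)).le
  nlinarith [mul_le_mul_of_nonneg_left h5 (sq_nonneg τ), mul_le_mul_of_nonneg_left h6 (sq_nonneg τ)]

/-- second order Taylor expansion in the centre: `gk q = gk 0 * exp u`,
`u = ⟪q,y⟫/R² - |q|²/(2R²)`, `|exp u - 1 - u| ≤ u² exp |u|` -/
theorem gk_taylor (d : ℕ) : ∃ C : ℝ, 0 ≤ C ∧ ∀ (q y : E) (R : ℝ), 0 < R → ‖q‖ ≤ R →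
    |gk d q R y - gk d 0 R y - ⟪q, y⟫ / R ^ 2 * gk d 0 R y| ≤
      C * (‖q‖ / R) ^ 2 * gk d 0 (2 * R) y := by
  refine ⟨2 ^ d * (Real.exp 8 + 1), by positivity, fun q y R hR hq => ?_⟩
  have h := gkb_real (τ := ‖q‖ / R) (s := ‖y‖ / R) (v := ⟪q, y⟫ / R ^ 2) (by positivity)
    (by rwa [div_le_one hR]) (by positivity) (by
      rw [abs_div, abs_of_pos (by positivity : 0 < R ^ 2), div_mul_div_comm, ← sq]
      exact div_le_div_of_nonneg_right (abs_real_inner_le_norm q y) (by positivity))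
  have e1 : Real.exp (-‖y - q‖ ^ 2 / (2 * R ^ 2)) =
      Real.exp (⟪q, y⟫ / R ^ 2 - (‖q‖ / R) ^ 2 / 2) * Real.exp (-(‖y‖ / R) ^ 2 / 2) := by
    rw [← Real.exp_add, norm_sub_sq_real, real_inner_comm]; congr 1; field_simp; ring
  have e2 : -‖y - 0‖ ^ 2 / (2 * R ^ 2) = -(‖y‖ / R) ^ 2 / 2 := by rw [sub_zero]; field_simp
  have e3 : -‖y - 0‖ ^ 2 / (2 * (2 * R) ^ 2) = -(‖y‖ / R) ^ 2 / 8 := by
    rw [sub_zero]; field_simp; ring
  have e4 : (√(2 * π) * R)⁻¹ ^ d = 2 ^ d * (√(2 * π) * (2 * R))⁻¹ ^ d := by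
    rw [← mul_pow]; congr 1; field_simp
  unfold gk
  rw [e1, e2, e3, e4]
  have hN : 0 ≤ 2 ^ d * (√(2 * π) * (2 * R))⁻¹ ^ d := by positivity
  have h2 := mul_le_mul_of_nonneg_left h hN
  refine le_trans (le_of_eq ?_) (h2.trans (le_of_eq (by ring)))
  have hB := Real.exp_pos (-(‖y‖ / R) ^ 2 / 2)
  generalize Real.exp (-(‖y‖ / R) ^ 2 / 2) = B at *
  generalize Real.exp (⟪q, y⟫ / R ^ 2 - (‖q‖ / R) ^ 2 / 2) = A at *
  generalize 2 ^ d * (√(2 * π) * (2 * R))⁻¹ ^ d = N at *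
  generalize ⟪q, y⟫ / R ^ 2 = v at *
  have e5 : N * (|A - 1 - v| * B) = |N * B * (A - 1 - v)| := by
    rw [abs_mul, abs_of_nonneg (mul_nonneg hN hB.le)]; ring
  rw [e5]
  congr 1
  ring

end Crest.Agent.R246.D
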