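import Crest.Agent.R246.D.Defs

/-! Row 246, block D: from pointwise tangent planes to a `C^{1,α}` graph. -/

set_option autoImplicit false
set_option linter.unusedSectionVars false

open MeasureTheory Metric Filter Topology Set Module
open scoped RealInnerProductSpace ENNReal ContDiff Real

noncomputable section

namespace Crest.Agent.R246.D

variable {E : Type} [NormedAddCommGroup E] [InnerProductSpace ℝ E] [FiniteDimensional ℝ E]

theorem gr_two {α a δ : ℝ} (hα : 0 < α) (hα1 : α < 1) (ha : 0 ≤ a) (h : a ≤ 2 * δ) :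
    a * a ^ α ≤ 4 * (δ * δ ^ α) := by
  have hδ : 0 ≤ δ := by linarith
  have h1 : a ^ α ≤ 2 * δ ^ α := by
    refine (Real.rpow_le_rpow ha h hα.le).trans ?_
    rw [Real.mul_rpow zero_le_two hδ]
    exact mul_le_mul_of_nonneg_right
      (by simpa using Real.rpow_le_rpow_of_exponent_le one_le_two hα1.le) (by positivity)
  nlinarith [mul_le_mul h h1 (by positivity) (by positivity)]

theorem gr_small {α c : ℝ} (K : ℝ) (hα : 0 < α) (hc : 0 < c) :
    ∀ᶠ s : ℝ in 𝓝 0, K * s ^ α ≤ c := by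
  have h : ContinuousAt (fun s : ℝ => K * s ^ α) 0 :=
    continuousAt_const.mul (Real.continuousAt_rpow_const _ _ (Or.inr hα.le))
  exact h.eventually (eventually_le_nhds (by simpa [Real.zero_rpow hα.ne'] using hc))

/-- a uniform first order Taylor inequality gives the gradient and its Hölder continuity
(compare at `x`, `x'`, `x'' = x' + |x - x'| u`) -/
theorem holder_of_taylor {ρ α K : ℝ} (hρ : 0 < ρ) (hα : 0 < α) (hα1 : α < 1) (hK : 0 ≤ K)
    {v : E → ℝ} {g : E → E}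
    (h : ∀ x ∈ ball (0 : E) ρ, ∀ x' ∈ ball (0 : E) ρ,
      |v x' - v x - ⟪g x, x' - x⟫| ≤ K * ‖x' - x‖ * ‖x' - x‖ ^ α) :
    (∀ x ∈ ball (0 : E) ρ, HasGradientAt v (g x) x) ∧
      ∀ x ∈ ball (0 : E) (ρ / 3), ∀ x' ∈ ball (0 : E) (ρ / 3),
        ‖g x - g x'‖ ≤ 6 * K * ‖x - x'‖ ^ α := by
  refine ⟨fun x hx => ?_, fun x hx x' hx' => ?_⟩
  · rw [hasGradientAt_iff_isLittleO, Asymptotics.isLittleO_iff]
    intro c hc
    have h1 : Tendsto (fun x' => ‖x' - x‖) (𝓝 x) (𝓝 0) := tendsto_norm_sub_self x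
    filter_upwards [isOpen_ball.mem_nhds hx, h1.eventually (gr_small K hα hc)] with x' h2 h3
    refine (h x hx x' h2).trans ?_
    nlinarith [mul_le_mul_of_nonneg_left h3 (norm_nonneg (x' - x))]
  · by_cases hg : g x - g x' = 0
    · rw [hg, norm_zero]; positivity
    have hδ : 0 < ‖x - x'‖ := norm_pos_iff.2 (sub_ne_zero.2 fun e => hg (by rw [e, sub_self]))
    have hw : 0 < ‖g x - g x'‖ := norm_pos_iff.2 hg
    obtain ⟨u, hu, hu'⟩ : ∃ u : E, ‖u‖ = ‖x - x'‖ ∧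
        ⟪g x - g x', u⟫ = ‖x - x'‖ * ‖g x - g x'‖ := by
      refine ⟨(‖x - x'‖ / ‖g x - g x'‖) • (g x - g x'), ?_, ?_⟩
      · rw [norm_smul, Real.norm_of_nonneg (by positivity), div_mul_cancel₀ _ hw.ne']
      · rw [inner_smul_right, real_inner_self_eq_norm_sq]; field_simp
    rw [mem_ball_zero_iff] at hx hx'
    have m1 : x ∈ ball (0 : E) ρ := mem_ball_zero_iff.2 (by linarith)
    have m2 : x' ∈ ball (0 : E) ρ := mem_ball_zero_iff.2 (by linarith)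
    have m3 : x' + u ∈ ball (0 : E) ρ :=
      mem_ball_zero_iff.2 (by linarith [norm_add_le x' u, norm_sub_le x x'])
    have a1 := h x m1 _ m3
    have a2 := h x m1 _ m2
    have a3 := h x' m2 _ m3
    have e1 : x' + u - x = x' - x + u := by abel
    have a4 := mul_le_mul_of_nonneg_left (gr_two (δ := ‖x - x'‖) hα hα1 (norm_nonneg (x' + u - x))
      (by rw [e1]; linarith [norm_add_le (x' - x) u, norm_sub_rev x x'])) hK
    rw [mul_assoc] at a1
    replace a1 := a1.trans a4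
    rw [e1, inner_add_right] at a1
    rw [norm_sub_rev x' x] at a2
    rw [add_sub_cancel_left, hu] at a3
    rw [inner_sub_left] at hu'
    refine le_of_mul_le_mul_left ?_ hδ
    linarith [(abs_le.1 a1).1, (abs_le.1 a2).2, (abs_le.1 a3).2]

/-- nearest point argument: minimise `‖π (y - p) - x‖`, `π v = v - ⟪e,v⟫ e`, over the compact set
`S ∩ closedBall p (ρ/2)`; `hc` gives `‖y - p‖ ≤ 2 ‖π (y - p)‖` -/
theorem surj {S : Set E} (hS : IsClosed S) {p e : E} (hp : p ∈ S) (he : ‖e‖ = 1) {ρ : ℝ}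
    (hρ : 0 < ρ) (hc : ∀ y ∈ S, dist y p < ρ → |⟪e, y - p⟫| ≤ ‖y - p‖ / 2)
    (hf : ∀ q ∈ S, dist q p < ρ → ∀ x : E, ⟪e, x⟫ = 0 → 0 < ‖x‖ → ‖x‖ < ρ →
      ∃ y ∈ S, ‖y - (q + x)‖ ≤ ‖x‖ / 2) :
    ∀ x : E, ⟪e, x⟫ = 0 → ‖x‖ < ρ / 20 → ∃ t : ℝ, |t| ≤ ‖x‖ ∧ p + x + t • e ∈ S := by
  intro x hx hxρ
  have n1 : ∀ v : E, ‖v - ⟪e, v⟫ • e‖ ≤ ‖v‖ := fun v => by
    refine le_of_sq_le_sq ?_ (norm_nonneg _)
    rw [norm_sub_sq_real, inner_smul_right, norm_smul, he, Real.norm_eq_abs, mul_one, sq_abs,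
      real_inner_comm]
    nlinarith [sq_nonneg ⟪e, v⟫]
  have hee : ⟪e, e⟫ = (1 : ℝ) := by rw [real_inner_self_eq_norm_sq, he, one_pow]
  obtain ⟨q, ⟨hq, hqp⟩, hm⟩ := ((isCompact_closedBall p (ρ / 2)).inter_left hS).exists_isMinOn
    ⟨p, hp, mem_closedBall_self (by positivity)⟩
    (f := fun y => ‖x - (y - p - ⟪e, y - p⟫ • e)‖) (by fun_prop)
  have a1 : ‖x - (q - p - ⟪e, q - p⟫ • e)‖ ≤ ‖x‖ := by
    simpa using hm (a := p) ⟨hp, mem_closedBall_self (by positivity)⟩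
  have hqρ : dist q p < ρ := (mem_closedBall.1 hqp).trans_lt (by linarith)
  have a2 := hc q hq hqρ
  have a3 : ‖q - p‖ ≤ 2 * ‖q - p - ⟪e, q - p⟫ • e‖ := by
    have := norm_add_le (q - p - ⟪e, q - p⟫ • e) (⟪e, q - p⟫ • e)
    rw [sub_add_cancel, norm_smul, he, Real.norm_eq_abs] at this
    linarith
  have a4 := norm_sub_le x (x - (q - p - ⟪e, q - p⟫ • e))
  rw [sub_sub_cancel] at a4
  by_cases h0 : x - (q - p - ⟪e, q - p⟫ • e) = 0
  · rw [sub_eq_zero] at h0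
    refine ⟨⟪e, q - p⟫, by rw [← h0] at a3; linarith, ?_⟩
    rw [show p + x + ⟪e, q - p⟫ • e = q by conv_lhs => rw [h0]; abel_nf]
    exact hq
  exfalso
  have hpos := norm_pos_iff.2 h0
  obtain ⟨y, hy, h⟩ := hf q hq hqρ _ (by
    rw [inner_sub_right, inner_sub_right, inner_smul_right, hx, hee]; ring) hpos (by linarith)
  have a5 : ‖y - p‖ ≤ ρ / 2 := by
    have := norm_add₃_le (a := y - (q + (x - (q - p - ⟪e, q - p⟫ • e))))
      (b := x - (q - p - ⟪e, q - p⟫ • e)) (c := q - p)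
    rw [show y - (q + (x - (q - p - ⟪e, q - p⟫ • e))) + (x - (q - p - ⟪e, q - p⟫ • e)) + (q - p) =
      y - p by abel] at this
    linarith
  have a6 : ‖x - (q - p - ⟪e, q - p⟫ • e)‖ ≤ ‖x - (y - p - ⟪e, y - p⟫ • e)‖ :=
    hm (a := y) ⟨hy, by rwa [mem_closedBall, dist_eq_norm]⟩
  have a7 := n1 (y - (q + (x - (q - p - ⟪e, q - p⟫ • e))))
  have e1 : y - (q + (x - (q - p - ⟪e, q - p⟫ • e))) -
      ⟪e, y - (q + (x - (q - p - ⟪e, q - p⟫ • e)))⟫ • e = -(x - (y - p - ⟪e, y - p⟫ • e)) := by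
    simp only [inner_sub_right, inner_add_right, inner_smul_right, hx, hee]
    module
  rw [e1, norm_neg] at a7
  linarith

/-- shrink `ρ` so that `K (2ρ)^α ≤ 1/10`; `v` from `surj`, `g x = -⟪ν,e⟫⁻¹ π ν` at the point
above `x`; `holder_of_taylor` on `(ℝ ∙ e)ᗮ` -/
theorem graph {S : Set E} (hS : IsClosed S) {p : E} (hp : p ∈ S) {ρ α K : ℝ} (hρ : 0 < ρ)
    (hα : 0 < α) (hα1 : α < 1) (hK : 0 ≤ K) {ν : E → E} (he : ‖ν p‖ = 1)
    (h1 : ∀ q ∈ S, dist q p < ρ → ‖ν q - ν p‖ ≤ 1 / 10 ∧ ∀ y ∈ S, dist y q < ρ →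
      |⟪ν q, y - q⟫| ≤ K * ‖y - q‖ * ‖y - q‖ ^ α)
    (hf : ∀ q ∈ S, dist q p < ρ → ∀ x : E, ⟪ν p, x⟫ = 0 → 0 < ‖x‖ → ‖x‖ < ρ →
      ∃ y ∈ S, ‖y - (q + x)‖ ≤ ‖x‖ / 2) : HGraph S p := by
  obtain ⟨σ, hσ, hσρ, hKσ⟩ : ∃ σ : ℝ, 0 < σ ∧ σ ≤ ρ ∧ K * σ ^ α ≤ 1 / 10 := by
    obtain ⟨σ, h⟩ := ((((gr_small K hα (show (0 : ℝ) < 1 / 10 by norm_num)).and
      (eventually_le_nhds hρ)).filter_mono nhdsWithin_le_nhds).and
        (self_mem_nhdsWithin (s := Ioi 0))).exists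
    exact ⟨σ, h.2, h.1.2, h.1.1⟩
  set e := ν p
  have hee : ⟪e, e⟫ = (1 : ℝ) := by rw [real_inner_self_eq_norm_sq, he, one_pow]
  have cone : ∀ q ∈ S, dist q p < σ → ∀ y ∈ S, dist y q < σ → |⟪e, y - q⟫| ≤ ‖y - q‖ / 5 := by
    intro q hq hqp y hy hyq
    obtain ⟨a1, a2⟩ := h1 q hq (hqp.trans_le hσρ)
    have a3 := a2 y hy (hyq.trans_le hσρ)
    have a4 : K * ‖y - q‖ ^ α ≤ 1 / 10 := le_trans (mul_le_mul_of_nonneg_left
      (Real.rpow_le_rpow (norm_nonneg _) (by rw [← dist_eq_norm]; exact hyq.le) hα.le) hK) hKσ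
    have a5 := (abs_real_inner_le_norm (ν q - e) (y - q)).trans
      (mul_le_mul_of_nonneg_right a1 (norm_nonneg _))
    have a6 := abs_sub ⟪ν q, y - q⟫ ⟪ν q - e, y - q⟫
    rw [inner_sub_left, sub_sub_cancel, ← inner_sub_left] at a6
    nlinarith [mul_le_mul_of_nonneg_left a4 (norm_nonneg (y - q))]
  have hx0 : ∀ x : (ℝ ∙ e)ᗮ, ⟪e, (x : E)⟫ = 0 := fun x =>
    Submodule.mem_orthogonal_singleton_iff_inner_right.1 x.2
  have hs := surj hS hp he hσ
    (fun y hy hyp => (cone p hp (by rwa [dist_self]) y hy hyp).trans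
      (by linarith [norm_nonneg (y - p)]))
    fun q hq hqp x hx h0 hxσ => hf q hq (hqp.trans_le hσρ) x hx h0 (hxσ.trans_le hσρ)
  have key : ∀ x : (ℝ ∙ e)ᗮ, ∃ t : ℝ, ‖x‖ < σ / 20 → |t| ≤ ‖x‖ ∧ p + (x : E) + t • e ∈ S := by
    intro x
    by_cases h : ‖x‖ < σ / 20
    · obtain ⟨t, ht⟩ := hs x (hx0 x) h
      exact ⟨t, fun _ => ht⟩
    · exact ⟨0, fun h' => (h h').elim⟩
  choose v hv using key
  have hd : ∀ (x : (ℝ ∙ e)ᗮ) (t : ℝ), dist (p + (x : E) + t • e) p ≤ ‖x‖ + |t| := fun x t => by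
    rw [dist_eq_norm, add_assoc, add_sub_cancel_left]
    refine (norm_add_le _ _).trans (le_of_eq ?_)
    rw [norm_smul, he, mul_one, Real.norm_eq_abs, Submodule.coe_norm]
  have lip : ∀ (x x' : (ℝ ∙ e)ᗮ) (t t' : ℝ), ‖x‖ < σ / 20 → ‖x'‖ < σ / 20 → |t| < σ / 20 →
      |t'| < σ / 20 → p + (x : E) + t • e ∈ S → p + (x' : E) + t' • e ∈ S →
      dist (p + (x' : E) + t' • e) (p + (x : E) + t • e) < σ ∧ |t' - t| ≤ ‖x' - x‖ ∧
        ‖p + (x' : E) + t' • e - (p + (x : E) + t • e)‖ ≤ 2 * ‖x' - x‖ := by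
    intro x x' t t' a1 a2 a3 a4 a5 a6
    have b1 : dist (p + (x' : E) + t' • e) (p + (x : E) + t • e) < σ := by
      linarith [dist_triangle_right (p + (x' : E) + t' • e) (p + (x : E) + t • e) p, hd x t, hd x' t']
    have b2 := cone _ a5 (by linarith [hd x t]) _ a6 b1
    have e1 : p + (x' : E) + t' • e - (p + (x : E) + t • e) = ((x' - x : (ℝ ∙ e)ᗮ) : E) + (t' - t) • e := by
      rw [Submodule.coe_sub]; module
    have b3 := norm_add_le ((x' - x : (ℝ ∙ e)ᗮ) : E) ((t' - t) • e)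
    rw [norm_smul, he, mul_one, Real.norm_eq_abs, ← Submodule.coe_norm] at b3
    rw [e1] at b2 ⊢
    rw [inner_add_right, hx0, zero_add, inner_smul_right, hee, mul_one] at b2
    exact ⟨b1, by linarith [norm_nonneg (x' - x)], by linarith [norm_nonneg (x' - x)]⟩
  have hv0 : v 0 = 0 := by simpa using (hv 0 (by simpa using hσ)).1
  let N : (ℝ ∙ e)ᗮ → E := fun x => ν (p + (x : E) + v x • e)
  let g : (ℝ ∙ e)ᗮ → (ℝ ∙ e)ᗮ := fun x => ⟨e - ⟪N x, e⟫⁻¹ • N x + (⟪N x, e⟫⁻¹ * ⟪N x, e⟫ - 1) • e,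
    Submodule.mem_orthogonal_singleton_iff_inner_right.2 (by
      simp only [inner_add_right, inner_sub_right, inner_smul_right, hee, real_inner_comm e (N x)]
      ring)⟩
  obtain ⟨H1, H2⟩ := holder_of_taylor (E := (ℝ ∙ e)ᗮ) (v := v) (g := g) (K := 8 * K)
    (show 0 < σ / 20 by positivity) hα hα1 (by positivity) fun x hx x' hx' => by
      rw [mem_ball_zero_iff] at hx hx'
      obtain ⟨a1, a2⟩ := hv x hx
      obtain ⟨a3, a4⟩ := hv x' hx'
      obtain ⟨b1, -, b2⟩ := lip x x' _ _ hx hx' (by linarith) (by linarith) a2 a4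
      obtain ⟨c1, c2⟩ := h1 _ a2 (by linarith [hd x (v x)])
      have c3 := c2 _ a4 (b1.trans_le hσρ)
      rw [mul_assoc] at c3
      replace c3 := c3.trans (mul_le_mul_of_nonneg_left (gr_two hα hα1 (norm_nonneg _) b2) hK)
      have c4 : 1 / 2 ≤ ⟪N x, e⟫ := by
        have := abs_real_inner_le_norm (N x - e) e
        rw [inner_sub_left, hee, he] at this
        linarith [(abs_le.1 this).1]
      have e1 : p + (x' : E) + v x' • e - (p + (x : E) + v x • e) =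
          ((x' - x : (ℝ ∙ e)ᗮ) : E) + (v x' - v x) • e := by
        rw [Submodule.coe_sub]; module
      have e2 : ⟪N x, p + (x' : E) + v x' • e - (p + (x : E) + v x • e)⟫ =
          ⟪N x, e⟫ * (v x' - v x - ⟪g x, x' - x⟫) := by
        rw [e1, Submodule.coe_inner]
        simp only [g, inner_add_right, inner_add_left, inner_sub_left, inner_smul_right,
          real_inner_smul_left, hx0]
        field_simp
        ring
      rw [e2, abs_mul, abs_of_pos (by linarith)] at c3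
      nlinarith [mul_le_mul_of_nonneg_right c4 (abs_nonneg (v x' - v x - ⟪g x, x' - x⟫))]
  refine ⟨e, σ / 20 / 3, α, 6 * (8 * K), v, g, he, by positivity, hα, hα1, hv0, ?_,
    fun x hx => H1 x (ball_subset_ball (by linarith) hx), H2, fun x hx t ht => ?_⟩
  · have : N 0 = e := by simp [N, hv0, e]
    ext
    simp only [g, this, hee]
    simp
  · rw [mem_ball_zero_iff] at hx
    obtain ⟨a1, a2⟩ := hv x (by linarith)
    refine ⟨fun h => ?_, fun h => h ▸ a2⟩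
    have := (lip x x _ _ (by linarith) (by linarith) (by linarith) (by linarith) a2 h).2.1
    rwa [sub_self x, norm_zero, abs_nonpos_iff, sub_eq_zero] at this

end Crest.Agent.R246.D
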