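import Crest.Agent.R246.D.WM
import Crest.Agent.R246.D.Resc

/-! Row 246, block D: the Harnack inequality. -/

set_option autoImplicit false
set_option linter.unusedSectionVars false

open MeasureTheory Metric Filter Topology Set Module
open scoped RealInnerProductSpace ENNReal ContDiff Real

noncomputable section

namespace Crest.Agent.R246.D

variable {E : Type} [NormedAddCommGroup E] [InnerProductSpace ℝ E] [FiniteDimensional ℝ E]
  [MeasurableSpace E] [BorelSpace E]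

/-- `mean_value` for `⟪e,·⟫ - a` at `y` and for `a + D - ⟪e,·⟫` at `y'`, `gk_shift` to the centre
`0`: `⟪e,y⟫ - ⟪e,y'⟫ + D ≤ D (1+η) Θ + 2 K D R⁴` -/
theorem harnack0 {d : ℕ} (hE : finrank ℝ E = d + 1) {Θ : ℝ} (hΘ : Θ < 2) :
    ∃ κ η : ℝ, 0 < κ ∧ κ ≤ 1 ∧ 0 < η ∧ η < 1 ∧ ∀ V : Measure (E × E), Al d Θ V →
      ∀ (e : E) (a D : ℝ), 0 ≤ D →
        (∀ y ∈ V.fst.support, ‖y‖ < 1 → a ≤ ⟪e, y⟫ ∧ ⟪e, y⟫ ≤ a + D) →
        Osc V.fst.support 0 κ e ((1 - η) * D) := by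
  obtain ⟨ζ, C, hζ⟩ := exists_cut (E := E)
  obtain ⟨K, hK, hm⟩ := mean_value hE hζ
  obtain ⟨δ, h0, h1, hδ⟩ : ∃ δ : ℝ, 0 < δ ∧ δ ≤ 1 ∧ Θ ≤ 2 - δ :=
    ⟨min 1 (2 - Θ), lt_min one_pos (by linarith), min_le_left _ _,
      by linarith [min_le_right 1 (2 - Θ)]⟩
  obtain ⟨c, l, hc, hl, hs⟩ := gk_shift (E := E) d (show 0 < δ / 8 by positivity)
  obtain ⟨R, hR, hR1, hKR⟩ : ∃ R : ℝ, 0 < R ∧ R ≤ 1 ∧ K * R ^ 4 ≤ δ / 8 := by
    have a : δ / 8 / (K + 1) ≤ 1 := by rw [div_le_one (by positivity)]; linarith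
    refine ⟨δ / 8 / (K + 1), by positivity, a, ?_⟩
    have b := pow_le_of_le_one (show 0 ≤ δ / 8 / (K + 1) by positivity) a (n := 4) (by norm_num)
    have e : (K + 1) * (δ / 8 / (K + 1)) = δ / 8 := by field_simp
    nlinarith [mul_le_mul_of_nonneg_left b hK, show 0 ≤ δ / 8 / (K + 1) by positivity]
  refine ⟨min (c * R) (1 / 4), δ / 2, by positivity, (min_le_right _ _).trans (by norm_num),
    by positivity, by linarith, fun V hV e a D hD hb y hy y' hy' hd hd' => ?_⟩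
  rw [dist_zero_right, lt_min_iff] at hd hd'
  have hV2 := hV.mono hΘ.le
  have a1 := hm V hV2 e (-a) D y hD hd.2.le (fun z hz hz' => by
    have := hb z hz hz'
    constructor <;> linarith [this.1, this.2]) hy R hR hR1
  have a2 := hm V hV2 (-e) (a + D) D y' hD hd'.2.le (fun z hz hz' => by
    have := hb z hz hz'
    rw [inner_neg_left]
    constructor <;> linarith [this.1, this.2]) hy' R hR hR1
  have hlR : 0 < l * R := by positivity
  have a3 : Ph d ζ V.fst (fun z => ⟪e, z⟫ + -a) y R + Ph d ζ V.fst (fun z => ⟪-e, z⟫ + (a + D)) y' R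
      ≤ D * (1 + δ / 8) * th d V.fst 0 (l * R) := by
    have i1 := wmb_int hV.toSV0 hζ (f := fun z => ⟪e, z⟫ + -a) (by fun_prop) y R
    have i2 := wmb_int hV.toSV0 hζ (f := fun z => ⟪-e, z⟫ + (a + D)) (by fun_prop) y' R
    unfold Ph th
    rw [← integral_add i1 i2, ← integral_const_mul]
    refine integral_mono_ae (i1.add i2) ((hV.integ 0 _ hlR).const_mul _) ?_
    filter_upwards [Measure.support_mem_ae] with z hz
    have hG := gk_pos d 0 hlR z
    by_cases hz' : ‖z‖ < 1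
    · obtain ⟨b1, b2⟩ := hb z hz hz'
      have b3 := hs 0 y z R hR (by rw [sub_zero]; exact hd.1.le)
      have b4 := hs 0 y' z R hR (by rw [sub_zero]; exact hd'.1.le)
      have b5 : ζ z * gk d y R z ≤ (1 + δ / 8) * gk d 0 (l * R) z :=
        (mul_le_of_le_one_left (gk_pos d y hR z).le (hζ.le_one z)).trans b3
      have b6 : ζ z * gk d y' R z ≤ (1 + δ / 8) * gk d 0 (l * R) z :=
        (mul_le_of_le_one_left (gk_pos d y' hR z).le (hζ.le_one z)).trans b4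
      rw [inner_neg_left]
      nlinarith [mul_le_mul_of_nonneg_left b5 (show 0 ≤ ⟪e, z⟫ + -a by linarith),
        mul_le_mul_of_nonneg_left b6 (show 0 ≤ -⟪e, z⟫ + (a + D) by linarith)]
    · simp only [hζ.zero z (by linarith), mul_zero, zero_mul, add_zero]
      positivity
  have a4 := mul_le_mul_of_nonneg_left ((hV.upper 0 _ hlR).trans hδ)
    (show 0 ≤ D * (1 + δ / 8) by positivity)
  rw [inner_neg_left] at a2
  nlinarith [mul_le_mul_of_nonneg_left hKR hD, mul_nonneg hD (sq_nonneg δ)]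

theorem osc_resc {S S' : Set E} {q : E} {s : ℝ} (hs : 0 < s) (h : ∀ y, y ∈ S' ↔ q + s • y ∈ S)
    (t : ℝ) (e : E) (D : ℝ) : Osc S' 0 t e D ↔ Osc S q (t * s) e (D * s) := by
  have e1 : ∀ y : E, dist (q + s • y) q = ‖y‖ * s := fun y => by
    rw [dist_eq_norm, add_sub_cancel_left, norm_smul, Real.norm_of_nonneg hs.le, mul_comm]
  have e2 : ∀ y y' : E, ⟪e, q + s • y⟫ - ⟪e, q + s • y'⟫ = (⟪e, y⟫ - ⟪e, y'⟫) * s := fun y y' => by
    simp only [inner_add_right, inner_smul_right]; ring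
  have e3 : ∀ z : E, ∃ y, z = q + s • y := fun z =>
    ⟨s⁻¹ • (z - q), by rw [smul_inv_smul₀ hs.ne', add_sub_cancel]⟩
  refine ⟨fun H z hz z' hz' hd hd' => ?_, fun H y hy y' hy' hd hd' => ?_⟩
  · obtain ⟨y, rfl⟩ := e3 z
    obtain ⟨y', rfl⟩ := e3 z'
    rw [e1, mul_lt_mul_iff_left₀ hs] at hd hd'
    rw [e2, mul_le_mul_iff_left₀ hs]
    exact H y ((h y).2 hz) y' ((h y').2 hz') (by rwa [dist_zero_right]) (by rwa [dist_zero_right])
  · rw [dist_zero_right] at hd hd'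
    have := H _ ((h y).1 hy) _ ((h y').1 hy') (by rwa [e1, mul_lt_mul_iff_left₀ hs])
      (by rwa [e1, mul_lt_mul_iff_left₀ hs])
    rwa [e2, mul_le_mul_iff_left₀ hs] at this

/-- `Al.rescale`; `a` is the infimum of `⟪e,·⟫` over the ball -/
theorem harnack1 {d : ℕ} (hE : finrank ℝ E = d + 1) {Θ : ℝ} (hΘ : Θ < 2) :
    ∃ κ η : ℝ, 0 < κ ∧ κ ≤ 1 ∧ 0 < η ∧ η < 1 ∧ ∀ V : Measure (E × E), Al d Θ V →
      ∀ (q : E) (s : ℝ) (e : E) (D : ℝ), 0 < s → 0 ≤ D → Osc V.fst.support q s e D →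
        Osc V.fst.support q (κ * s) e ((1 - η) * D) := by
  obtain ⟨κ, η, h0, h1, h2, h3, H⟩ := harnack0 hE hΘ
  refine ⟨κ, η, h0, h1, h2, h3, fun V hV q s e D hs hD ho => ?_⟩
  obtain ⟨V', hV', hS⟩ := hV.rescale q hs
  have o1 : Osc V'.fst.support 0 1 e (D / s) := by
    rw [osc_resc hs hS, one_mul, div_mul_cancel₀ _ hs.ne']; exact ho
  have o2 := H V' hV' e (sInf ((fun y => ⟪e, y⟫) '' {y | y ∈ V'.fst.support ∧ dist y 0 < 1}))
    (D / s) (by positivity) fun y hy hy' => by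
      rw [← dist_zero_right] at hy'
      refine ⟨csInf_le ⟨⟪e, y⟫ - D / s, ?_⟩ ⟨y, ⟨hy, hy'⟩, rfl⟩, ?_⟩
      · rintro _ ⟨z, hz, rfl⟩
        linarith [o1 y hy z hz.1 hy' hz.2]
      · rw [← sub_le_iff_le_add]
        refine le_csInf ⟨_, y, ⟨hy, hy'⟩, rfl⟩ ?_
        rintro _ ⟨z, hz, rfl⟩
        linarith [o1 y hy z hz.1 hy' hz.2]
  rwa [osc_resc hs hS, mul_assoc, div_mul_cancel₀ _ hs.ne'] at o2

/-- iteration -/
theorem harnack {d : ℕ} (hE : finrank ℝ E = d + 1) {Θ : ℝ} (hΘ : Θ < 2) {γ : ℝ} (hγ : 0 < γ) :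
    ∃ σ : ℝ, 0 < σ ∧ σ ≤ 1 ∧ ∀ V : Measure (E × E), Al d Θ V →
      ∀ (q : E) (s : ℝ) (e : E) (D : ℝ), 0 < s → 0 ≤ D → Osc V.fst.support q s e D →
        Osc V.fst.support q (σ * s) e (γ * D) := by
  obtain ⟨κ, η, h0, h1, h2, h3, H⟩ := harnack1 hE hΘ
  obtain ⟨n, hn⟩ := exists_pow_lt_of_lt_one hγ (show 1 - η < 1 by linarith)
  refine ⟨κ ^ n, by positivity, pow_le_one₀ h0.le h1, fun V hV q s e D hs hD ho => ?_⟩
  have key : ∀ k : ℕ, Osc V.fst.support q (κ ^ k * s) e ((1 - η) ^ k * D) := by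
    intro k
    induction k with
    | zero => simpa using ho
    | succ k ih =>
      have := H V hV q _ e _ (by positivity)
        (mul_nonneg (pow_nonneg (by linarith) k) hD) ih
      rwa [← mul_assoc, ← mul_assoc, ← pow_succ', ← pow_succ'] at this
  exact fun y hy y' hy' hd hd' =>
    (key n y hy y' hy' hd hd').trans (mul_le_mul_of_nonneg_right hn.le hD)

end Crest.Agent.R246.D
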