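import Crest.Agent.R246.D.Harn
import Crest.Agent.R246.D.Dft

/-! Row 246, block D: improvement of flatness. -/

set_option autoImplicit false
set_option linter.unusedSectionVars false

open MeasureTheory Metric Filter Topology Set Module
open scoped RealInnerProductSpace ENNReal ContDiff Real

noncomputable section

namespace Crest.Agent.R246.D

variable {E : Type} [NormedAddCommGroup E] [InnerProductSpace ℝ E] [FiniteDimensional ℝ E]
  [MeasurableSpace E] [BorelSpace E]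

/-- at a point `q` of the support the weight `h - h q` has small average at a fixed scale `R`:
`harnack` and `gk_tail` at a tiny scale `r₀`, then `wm2`, `defect` -/
theorem avg_small (hB : Bas) {d : ℕ} (hE : finrank ℝ E = d + 1) {Θ : ℝ} (hΘ : Θ < 2)
    {ζ : E → ℝ} {C : ℝ} (hζ : Cut ζ C) : ∃ K : ℝ, 0 ≤ K ∧ ∀ R : ℝ, 0 < R → R ≤ 1 →
      ∃ ε₀ : ℝ, 0 < ε₀ ∧ ∀ V : Measure (E × E), Al d Θ V → ∀ (e : E) (ε : ℝ), ‖e‖ = 1 → 0 < ε →
        ε ≤ ε₀ → (∀ y ∈ V.fst.support, ‖y‖ < 1 → |⟪e, y⟫| ≤ ε) →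
        ∀ q ∈ V.fst.support, ‖q‖ ≤ 1 / 4 →
          |Ph d ζ V.fst (fun y => ⟪e, y⟫) q R - ⟪e, q⟫ * Ph d ζ V.fst (fun _ => 1) q R| ≤
            K * ε * R ^ 4 := by
  obtain ⟨T₀, hT₀, h₀⟩ := gk_poly (E := E) d 0 one_lt_two
  obtain ⟨T, hT, h₁⟩ := gk_tail (E := E) d 4
  obtain ⟨K, hK, h₂⟩ := wm2 hE hζ
  obtain ⟨K', hK', h₃⟩ := defect hB hE
  refine ⟨4 * (T₀ + T) + 2 * (2 * K' + K), by positivity, fun R hR hR1 => ?_⟩
  obtain ⟨σ, hσ, hσ1, h₄⟩ := harnack hE hΘ (show 0 < R ^ 4 by positivity)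
  obtain ⟨r, hr⟩ : ∃ r, r = R * (σ * (1 / 2)) := ⟨_, rfl⟩
  have hr0 : 0 < r := by rw [hr]; positivity
  have hrR : r ≤ R := by rw [hr]; exact mul_le_of_le_one_right hR.le (by linarith)
  refine ⟨r ^ 2 * R ^ 2, by positivity, fun V hV e ε he hε hε₀ hf q hq hq4 => ?_⟩
  have hV2 := (hV.mono hΘ.le).toSV
  have hq1 := hf q hq (by linarith)
  have hf2 : ∀ y ∈ V.fst.support, ‖y‖ < 1 → |⟪e, y⟫ + -⟪e, q⟫| ≤ 2 * ε := fun y hy hy1 => by
    have := abs_add_le ⟪e, y⟫ (-⟪e, q⟫)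
    rw [abs_neg] at this
    linarith [hf y hy hy1]
  have hO := h₄ V hV q (1 / 2) e (2 * ε) (by norm_num) (by positivity) fun y hy y' hy' a a' => by
    rw [dist_eq_norm] at a a'
    linarith [(abs_le.1 (hf y hy (by linarith [norm_sub_norm_le y q]))).2,
      (abs_le.1 (hf y' hy' (by linarith [norm_sub_norm_le y' q]))).1]
  have a1 := h₂ V hV2 e (-⟪e, q⟫) (2 * ε) q (by positivity) hq4 hf2 r R hr0 hrR hR1
  have a2 := h₃ V hV2 e q ε he hq4 hq1 hf r R hr0 hrR hR1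
  have a3 : ε ^ 2 / r ^ 3 ≤ R ^ 4 := by
    rw [div_le_iff₀ (by positivity)]
    have b1 : ε ^ 2 ≤ (r ^ 2 * R ^ 2) ^ 2 := by gcongr
    have b2 : r * (R ^ 4 * r ^ 3) ≤ R ^ 4 * r ^ 3 :=
      mul_le_of_le_one_left (by positivity) (hrR.trans hR1)
    linarith
  have a4 := abs_integral_le hV2 (F := fun y => (⟪e, y⟫ + -⟪e, q⟫) * ζ y * gk d q r y)
    (K := 2 * ε * R ^ 4 * (T₀ + T)) (p := q) (show 0 < 2 * r by positivity) (by positivity)
    fun y hy => by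
      have hG := (gk_pos d q hr0 y).le
      have hG2 := (gk_pos d q (show 0 < 2 * r by positivity) y).le
      by_cases hy1 : 7 / 8 ≤ ‖y‖
      · rw [hζ.zero y hy1, mul_zero, zero_mul, abs_zero]
        positivity
      rw [abs_mul, abs_mul, abs_of_nonneg hG, abs_of_nonneg (hζ.nonneg y)]
      refine (mul_le_mul_of_nonneg_right
        (mul_le_of_le_one_right (abs_nonneg _) (hζ.le_one y)) hG).trans ?_
      have c1 : 0 ≤ 2 * ε * R ^ 4 * T₀ * gk d q (2 * r) y := by positivity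
      have c2 : 0 ≤ 2 * ε * R ^ 4 * T * gk d q (2 * r) y := by positivity
      by_cases hy2 : dist y q < σ * (1 / 2)
      · have hq0 : dist q q < σ * (1 / 2) := by rw [dist_self]; positivity
        have b1 : |⟪e, y⟫ + -⟪e, q⟫| ≤ R ^ 4 * (2 * ε) :=
          abs_le.2 ⟨by linarith [hO q hq y hy hq0 hy2], by linarith [hO y hy q hq hy2 hq0]⟩
        have b2 := h₀ q y r hr0
        rw [pow_zero, one_mul] at b2
        linarith [mul_le_mul b1 b2 hG (by positivity)]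
      · have b2 := h₁ q y r (σ * (1 / 2)) hr0 (by positivity) (by rwa [← dist_eq_norm, ← not_lt])
        rw [show r / (σ * (1 / 2)) = R by rw [hr]; field_simp] at b2
        linarith [mul_le_mul (hf2 y hy (by linarith)) b2 hG (by positivity)]
  have e1 := wmb_lin hV.toSV0 hζ (f := fun y => ⟪e, y⟫) (by fun_prop)
    (g := fun y => ⟪e, y⟫ + -⟪e, q⟫) (s := 1) (t := -⟪e, q⟫) (fun y => by ring) q R
  have a5 := mul_le_mul_of_nonneg_left (a2.trans (mul_le_mul_of_nonneg_left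
    (add_le_add a3 le_rfl) hK')) (show 0 ≤ 2 * ε by positivity)
  have a6 := abs_sub_abs_le_abs_sub (Ph d ζ V.fst (fun y => ⟪e, y⟫ + -⟪e, q⟫) q R)
    (Ph d ζ V.fst (fun y => ⟪e, y⟫ + -⟪e, q⟫) q r)
  rw [show _ - _ = Ph d ζ V.fst (fun y => ⟪e, y⟫ + -⟪e, q⟫) q R by rw [e1]; ring]
  change |Ph d ζ V.fst (fun y => ⟪e, y⟫ + -⟪e, q⟫) q r| ≤ _ at a4
  linarith

/-- Taylor expansion in the centre, `A = ∫ (h ζ gk 0 R / R²) • y` (`gk_taylor`, `gk_poly`) -/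
theorem Ph_taylor (d : ℕ) {ζ : E → ℝ} {C : ℝ} (hζ : Cut ζ C) : ∃ K : ℝ, 0 ≤ K ∧
    ∀ V : Measure (E × E), SV d V 2 → ∀ (f : E → ℝ) (M R : ℝ), Continuous f → 0 ≤ M → 0 < R →
      (∀ y ∈ V.fst.support, ‖y‖ < 1 → |f y| ≤ M) →
      ∃ A : E, ‖A‖ ≤ K * M / R ∧ ∀ q : E, ‖q‖ ≤ R →
        |Ph d ζ V.fst f q R - Ph d ζ V.fst f 0 R - ⟪A, q⟫| ≤ K * M * (‖q‖ / R) ^ 2 := by
  obtain ⟨T, hT, h₀⟩ := gk_poly (E := E) d 1 one_lt_two
  obtain ⟨K, hK, h₁⟩ := gk_taylor (E := E) d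
  refine ⟨2 * (T + K), by positivity, fun V hV f M R hf hM hR hfM => ?_⟩
  have hb : ∀ y ∈ V.fst.support, |f y * ζ y| ≤ M := fun y hy => by
    by_cases hy1 : 7 / 8 ≤ ‖y‖
    · rwa [hζ.zero y hy1, mul_zero, abs_zero]
    rw [abs_mul, abs_of_nonneg (hζ.nonneg y)]
    exact (mul_le_of_le_one_right (abs_nonneg _) (hζ.le_one y)).trans (hfM y hy (by linarith))
  have hc : Continuous fun y : E => (f y * ζ y * gk d 0 R y / R ^ 2) • y :=
    (((hf.mul hζ.smooth.continuous).mul (continuous_gk d 0 R)).div_const _).smul continuous_id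
  have hs : HasCompactSupport fun y : E => (f y * ζ y * gk d 0 R y / R ^ 2) • y := by
    simp only [div_eq_mul_inv]
    exact hζ.hasCompactSupport.mul_left.mul_right.mul_right.smul_right
  have hi : Integrable (fun y : E => (f y * ζ y * gk d 0 R y / R ^ 2) • y) V.fst :=
    (integrable_cs hV.toSV0 hc.norm hs.norm).mono' hc.aestronglyMeasurable
      (Eventually.of_forall fun y => le_rfl)
  refine ⟨∫ y, (f y * ζ y * gk d 0 R y / R ^ 2) • y ∂V.fst, ?_, fun q hq => ?_⟩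
  · have := abs_integral_le hV (F := fun y => ‖(f y * ζ y * gk d 0 R y / R ^ 2) • y‖)
      (K := M / R * T) (p := 0) (show 0 < 2 * R by positivity) (by positivity) fun y hy => by
        have hG := (gk_pos d 0 hR y).le
        have b := h₀ 0 y R hR
        rw [pow_one, sub_zero] at b
        rw [abs_norm, norm_smul, norm_div, norm_mul, Real.norm_of_nonneg hG,
          Real.norm_of_nonneg (sq_nonneg R), mul_assoc]
        refine le_trans ?_ (mul_le_mul_of_nonneg_left b (by positivity))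
        refine (mul_le_mul_of_nonneg_right (div_le_div_of_nonneg_right
          (mul_le_mul_of_nonneg_right (hb y hy) hG) (sq_nonneg R)) (norm_nonneg y)).trans_eq ?_
        ring
    refine (norm_integral_le_integral_norm _).trans ((le_abs_self _).trans (this.trans ?_))
    have : 0 ≤ K * M / R := by positivity
    have e : 2 * (T + K) * M / R = 2 * (M / R * T) + 2 * (K * M / R) := by ring
    linarith
  · have i1 := wmb_int hV.toSV0 hζ hf q R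
    have i2 := wmb_int hV.toSV0 hζ hf 0 R
    have := abs_integral_le hV (F := fun y => f y * ζ y * gk d q R y - f y * ζ y * gk d 0 R y -
        ⟪q, (f y * ζ y * gk d 0 R y / R ^ 2) • y⟫)
      (K := M * (K * (‖q‖ / R) ^ 2)) (p := 0) (show 0 < 2 * R by positivity) (by positivity)
      fun y hy => by
        rw [mul_assoc M]
        refine le_trans (le_of_eq ?_) (mul_le_mul (hb y hy) (h₁ q y R hR hq) (abs_nonneg _) hM)
        rw [← abs_mul, real_inner_smul_right]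
        congr 1
        ring
    have i3 : Integrable (fun y => f y * ζ y * gk d q R y - f y * ζ y * gk d 0 R y) V.fst :=
      i1.sub i2
    rw [integral_sub i3 (hi.const_inner q), integral_sub i1 i2, integral_inner hi,
      real_inner_comm] at this
    refine this.trans ?_
    have : 0 ≤ T * M * (‖q‖ / R) ^ 2 := by positivity
    linarith

theorem ib_arith {K₁ K₂ ε R m m' u u' h a b : ℝ} (hK₁ : 0 ≤ K₁) (hK₂ : 0 ≤ K₂) (hε : 0 ≤ ε)
    (hR5 : R ^ 4 ≤ R ^ 2) (b1 : |u' - h * m'| ≤ K₁ * ε * R ^ 4)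
    (b2 : |u' - u - a| ≤ K₂ * ε * R ^ 4) (b3 : |m' - m - b| ≤ K₂ * 1 * R ^ 4) (b4 : 1 / 2 ≤ m')
    (b5 : |a| ≤ K₂ * ε * R ^ 2) (b6 : |b| ≤ K₂ * R ^ 2) (hu0 : |u| ≤ K₁ * ε * R ^ 4) :
    |m * h - a| ≤ (8 * K₂ * (K₁ + K₂) + 2 * K₁ + K₂) * ε * R ^ 4 := by
  have c0 : K₁ * ε * R ^ 4 ≤ K₁ * ε * R ^ 2 := by gcongr
  have c0' : K₂ * ε * R ^ 4 ≤ K₂ * ε * R ^ 2 := by gcongr
  have c1 : |h * m'| ≤ 2 * (K₁ + K₂) * ε * R ^ 2 := by
    rw [abs_le] at *
    constructor <;> linarith [b1.1, b1.2, b2.1, b2.2, b5.1, b5.2, hu0.1, hu0.2]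
  have c2 : |h| ≤ 4 * (K₁ + K₂) * ε * R ^ 2 := by
    rw [abs_mul, abs_of_nonneg (by linarith : 0 ≤ m')] at c1
    linarith [mul_le_mul_of_nonneg_left b4 (abs_nonneg h)]
  have c3 : |m - m'| ≤ 2 * K₂ * R ^ 2 := by
    have : K₂ * 1 * R ^ 4 ≤ K₂ * R ^ 2 := by rw [mul_one]; gcongr
    rw [abs_le] at *
    constructor <;> linarith [b3.1, b3.2, b6.1, b6.2]
  have c4 := mul_le_mul c2 c3 (abs_nonneg _) (by positivity)
  rw [← abs_mul] at c4
  rw [abs_le] at *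
  constructor <;> linarith [b1.1, b1.2, b2.1, b2.2, c4.1, c4.2, hu0.1, hu0.2]

/-- `u = Ph h · R`, `m = Ph 1 · R`, `κ = R³`; `m ≥ 1/2` on the support (`Ph_one`, `Lower`);
first `|h q| ≤ K ε |q|/R + K ε R⁴`, then `|h q m 0 - ⟪A,q⟫| ≤ K ε R⁴`; `e' ∝ m 0 • e - A` -/
theorem imp0 (hB : Bas) {d : ℕ} (hE : finrank ℝ E = d + 1) {Θ : ℝ} (hΘ : Θ < 2) :
    ∃ κ K ε₀ : ℝ, 0 < κ ∧ κ < 1 / 2 ∧ 0 ≤ K ∧ 0 < ε₀ ∧ ∀ V : Measure (E × E), Al d Θ V →
      (0 : E) ∈ V.fst.support → ∀ (e : E) (ε : ℝ), ‖e‖ = 1 → 0 < ε → ε ≤ ε₀ →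
        (∀ y ∈ V.fst.support, ‖y‖ < 1 → |⟪e, y⟫| ≤ ε) →
        ∃ e' : E, ‖e'‖ = 1 ∧ ‖e' - e‖ ≤ K * ε ∧
          ∀ y ∈ V.fst.support, ‖y‖ < κ → |⟪e', y⟫| ≤ ε / 2 * κ := by
  obtain ⟨ζ, C, hζ⟩ := exists_cut (E := E)
  obtain ⟨K₁, hK₁, h₁⟩ := avg_small hB hE hΘ hζ
  obtain ⟨K₂, hK₂, h₂⟩ := Ph_taylor d hζ
  obtain ⟨K₃, hK₃, h₃⟩ := Ph_one (d := d) hζ
  obtain ⟨K₄, hK₄⟩ : ∃ K, K = 8 * K₂ * (K₁ + K₂) + 2 * K₁ + K₂ := ⟨_, rfl⟩
  have hK₄0 : 0 ≤ K₄ := by rw [hK₄]; positivity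
  obtain ⟨R, hR⟩ : ∃ R : ℝ, R = 1 / (8 * K₄ + 2 * K₃ + 4) := ⟨_, rfl⟩
  have hR0 : 0 < R := by rw [hR]; positivity
  have hR1 : (8 * K₄ + 2 * K₃ + 4) * R = 1 := by rw [hR]; field_simp
  have hR2 : R ≤ 1 / 4 := by nlinarith
  have hR3 : R ^ 3 ≤ R := pow_le_of_le_one hR0.le (by linarith) (by norm_num)
  have hR4 : R ^ 4 ≤ R := pow_le_of_le_one hR0.le (by linarith) (by norm_num)
  have hR5 : R ^ 4 ≤ R ^ 2 := pow_le_pow_of_le_one hR0.le (by linarith) (by norm_num)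
  obtain ⟨ε₀, hε₀, h₄⟩ := h₁ R hR0 (by linarith)
  refine ⟨R ^ 3, 8 * K₂ / R, min ε₀ (R / (4 * (K₂ + 1))), by positivity, by linarith,
    by positivity, by positivity, fun V hV h0 e ε he hε hεle hf => ?_⟩
  have hV2 := (hV.mono hΘ.le).toSV
  have h₅ := h₄ V hV e ε he hε (hεle.trans (min_le_left _ _)) hf
  obtain ⟨A, hA, hA'⟩ := h₂ V hV2 (fun y => ⟪e, y⟫) ε R (by fun_prop) hε.le hR0 hf
  obtain ⟨B, hB1, hB'⟩ := h₂ V hV2 (fun _ => 1) 1 R continuous_const zero_le_one hR0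
    fun _ _ _ => by simp
  have hm : ∀ q ∈ V.fst.support, ‖q‖ ≤ 1 / 4 → 1 / 2 ≤ Ph d ζ V.fst (fun _ => 1) q R :=
    fun q hq hq4 => by
      have b1 := hV.low q hq R hR0
      have b2 := (h₃ V hV2 q R hq4 hR0).2
      nlinarith [mul_le_mul_of_nonneg_left hR4 hK₃]
  have hm0 := hm 0 h0 (by simp)
  have hu0 := h₅ 0 h0 (by simp)
  rw [inner_zero_right, zero_mul, sub_zero] at hu0
  generalize Ph d ζ V.fst (fun _ => 1) 0 R = m at *
  have hA4 : ‖A‖ ≤ 1 / 4 := by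
    have := hεle.trans (min_le_right _ _)
    rw [le_div_iff₀ (by positivity)] at this
    refine hA.trans ?_
    rw [div_le_iff₀ hR0]
    nlinarith
  have hme : ‖m • e‖ = m := by rw [norm_smul, he, mul_one, Real.norm_of_nonneg (by linarith)]
  have hv1 : |‖m • e - A‖ - m| ≤ ‖A‖ := by
    have := abs_norm_sub_norm_le (m • e - A) (m • e)
    rwa [hme, sub_sub_cancel_left, norm_neg] at this
  have hv : 1 / 4 ≤ ‖m • e - A‖ := by linarith [(abs_le.1 hv1).1]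
  have hv0 : 0 < ‖m • e - A‖ := by linarith
  have hi : ‖m • e - A‖⁻¹ ≤ 4 := by
    rw [inv_le_comm₀ hv0 (by norm_num)]
    linarith
  refine ⟨‖m • e - A‖⁻¹ • (m • e - A), by
    rw [norm_smul, norm_inv, norm_norm, inv_mul_cancel₀ hv0.ne'], ?_, fun q hq hqR => ?_⟩
  · have e1 : ‖m • e - A‖⁻¹ • (m • e - A) - e =
        ‖m • e - A‖⁻¹ • (-((‖m • e - A‖ - m) • e) - A) := by
      rw [sub_smul, neg_sub, sub_right_comm, smul_sub _ (m • e - A), smul_smul,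
        inv_mul_cancel₀ hv0.ne', one_smul]
    rw [e1, norm_smul, norm_inv, norm_norm]
    have e2 := norm_sub_le (-((‖m • e - A‖ - m) • e)) A
    rw [norm_neg, norm_smul, he, mul_one, Real.norm_eq_abs] at e2
    refine (mul_le_mul hi (e2.trans (add_le_add (hv1.trans hA) hA)) (norm_nonneg _)
      (by norm_num)).trans_eq ?_
    ring
  · have hq4 : ‖q‖ ≤ 1 / 4 := by linarith
    have hqq : ‖q‖ / R ≤ R ^ 2 := by rw [div_le_iff₀ hR0]; linarith [pow_succ R 2]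
    have hq2 : (‖q‖ / R) ^ 2 ≤ R ^ 4 := by
      rw [show R ^ 4 = (R ^ 2) ^ 2 by ring]
      gcongr
    have b1 := h₅ q hq hq4
    have b2 := (hA' q (by linarith)).trans (mul_le_mul_of_nonneg_left hq2 (by positivity))
    have b3 := (hB' q (by linarith)).trans (mul_le_mul_of_nonneg_left hq2 (by positivity))
    have b4 := hm q hq hq4
    have b5 : |⟪A, q⟫| ≤ K₂ * ε * R ^ 2 := by
      refine (abs_real_inner_le_norm A q).trans ((mul_le_mul_of_nonneg_right hA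
        (norm_nonneg _)).trans ?_)
      rw [div_mul_eq_mul_div, mul_div_assoc]
      gcongr
    have b6 : |⟪B, q⟫| ≤ K₂ * R ^ 2 := by
      refine (abs_real_inner_le_norm B q).trans ((mul_le_mul_of_nonneg_right hB1
        (norm_nonneg _)).trans ?_)
      rw [div_mul_eq_mul_div, mul_div_assoc, mul_one]
      gcongr
    rw [real_inner_smul_left, inner_sub_left, real_inner_smul_left, abs_mul,
      abs_of_nonneg (by positivity)]
    have c5 := ib_arith hK₁ hK₂ hε.le hR5 b1 b2 b3 b4 b5 b6 hu0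
    rw [← hK₄] at c5
    refine (mul_le_mul hi c5 (abs_nonneg _) (by norm_num)).trans ?_
    have c6 : 8 * K₄ * R ≤ 1 := by nlinarith
    linarith [mul_le_mul_of_nonneg_right c6 (show 0 ≤ ε * R ^ 3 by positivity)]

/-- `Al.rescale` -/
theorem imp (hB : Bas) {d : ℕ} (hE : finrank ℝ E = d + 1) {Θ : ℝ} (hΘ : Θ < 2) :
    ∃ κ K ε₀ : ℝ, 0 < κ ∧ κ < 1 / 2 ∧ 0 ≤ K ∧ 0 < ε₀ ∧ ∀ V : Measure (E × E), Al d Θ V →
      IF V.fst.support κ K ε₀ := by
  obtain ⟨κ, K, ε₀, hκ, hκ', hK, hε₀, h⟩ := imp0 hB hE hΘ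
  refine ⟨κ, K, ε₀, hκ, hκ', hK, hε₀, fun V hV p hp r e ε hr he hε hεle hf => ?_⟩
  obtain ⟨V', hV', hS⟩ := hV.rescale p hr
  obtain ⟨e', he', h1, h2⟩ := h V' hV' (by rw [hS]; simpa using hp) e ε he hε hεle fun y hy hy1 => by
    have := hf _ ((hS y).1 hy) (by
      rw [dist_eq_norm, add_sub_cancel_left, norm_smul, Real.norm_of_nonneg hr.le]
      exact mul_lt_of_lt_one_right hr hy1)
    rw [add_sub_cancel_left, real_inner_smul_right, abs_mul, abs_of_pos hr, mul_comm] at this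
    exact le_of_mul_le_mul_right this hr
  refine ⟨e', he', h1, fun y hy hyp => ?_⟩
  have := h2 (r⁻¹ • (y - p)) (by rw [hS, smul_inv_smul₀ hr.ne']; simpa using hy) (by
    rw [norm_smul, norm_inv, Real.norm_of_nonneg hr.le, inv_mul_lt_iff₀ hr, mul_comm]
    rwa [dist_eq_norm] at hyp)
  rw [real_inner_smul_right, abs_mul, abs_inv, abs_of_pos hr, inv_mul_le_iff₀ hr] at this
  linarith

end Crest.Agent.R246.D
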