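import Crest.Agent.R246.D.Defs

/-! Row 246, block D: iteration of the improvement of flatness. -/

set_option autoImplicit false
set_option linter.unusedSectionVars false

open MeasureTheory Metric Filter Topology Set Module
open scoped RealInnerProductSpace ENNReal ContDiff Real

noncomputable section

namespace Crest.Agent.R246.D

variable {E : Type} [NormedAddCommGroup E] [InnerProductSpace ℝ E] [FiniteDimensional ℝ E]

theorem it_seq {κ C : ℝ} (hκ : 0 < κ) {S : Set E} {ε₀ : ℝ} (h : IF S κ C ε₀) {p : E} (hp : p ∈ S)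
    {r : ℝ} {e : E} {ε : ℝ} (hr : 0 < r) (he : ‖e‖ = 1) (hε : 0 < ε) (hε₀ : ε ≤ ε₀)
    (hf : FlatAt S p r e ε) :
    ∃ u : ℕ → E, u 0 = e ∧ (∀ k, ‖u k‖ = 1 ∧ FlatAt S p (κ ^ k * r) (u k) (ε / 2 ^ k)) ∧
      ∀ k, ‖u (k + 1) - u k‖ ≤ C * (ε / 2 ^ k) := by
  have step : ∀ (k : ℕ) (v : {v : E // ‖v‖ = 1 ∧ FlatAt S p (κ ^ k * r) v (ε / 2 ^ k)}),
      ∃ v' : {v : E // ‖v‖ = 1 ∧ FlatAt S p (κ ^ (k + 1) * r) v (ε / 2 ^ (k + 1))},
        ‖v'.1 - v.1‖ ≤ C * (ε / 2 ^ k) := by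
    intro k v
    have h1 : ε / 2 ^ k ≤ ε₀ :=
      (div_le_self hε.le (one_le_pow₀ (by norm_num))).trans hε₀
    obtain ⟨e', h2, h3, h4⟩ := h p hp (κ ^ k * r) v.1 (ε / 2 ^ k) (by positivity) v.2.1
      (by positivity) h1 v.2.2
    refine ⟨⟨e', h2, ?_⟩, h3⟩
    have e1 : κ ^ (k + 1) * r = κ * (κ ^ k * r) := by ring
    have e2 : ε / 2 ^ (k + 1) = ε / 2 ^ k / 2 := by rw [pow_succ, div_div]
    rw [e1, e2]
    exact h4
  choose F hF using step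
  let u : ∀ k : ℕ, {v : E // ‖v‖ = 1 ∧ FlatAt S p (κ ^ k * r) v (ε / 2 ^ k)} := fun k =>
    Nat.rec (motive := fun k => {v : E // ‖v‖ = 1 ∧ FlatAt S p (κ ^ k * r) v (ε / 2 ^ k)})
      ⟨e, he, by simpa using hf⟩ (fun k v => F k v) k
  exact ⟨fun k => (u k).1, rfl, fun k => (u k).2, fun k => hF k (u k)⟩

theorem it_scale {κ x : ℝ} (hκ : 0 < κ) (hκ1 : κ < 1) (hx : 0 < x) (hx1 : x < 1) :
    ∃ k : ℕ, κ ^ (k + 1) ≤ x ∧ x < κ ^ k := by
  classical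
  have hex : ∃ k : ℕ, κ ^ (k + 1) ≤ x := by
    obtain ⟨n, hn, -⟩ := exists_nat_pow_near_of_lt_one hx hx1.le hκ hκ1
    exact ⟨n, hn.le⟩
  refine ⟨Nat.find hex, Nat.find_spec hex, ?_⟩
  rcases Nat.eq_zero_or_eq_succ_pred (Nat.find hex) with h0 | h0
  · rw [h0]; simpa using hx1
  · have := Nat.find_min hex (m := (Nat.find hex).pred) (by omega)
    rw [h0]
    exact not_le.mp this

/-- normals `e_k` at scale `κ^k r` with flatness `ε/2^k` form a Cauchy sequence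
(`cauchySeq_of_le_geometric_two`, `dist_le_of_le_geometric_two_of_tendsto`); `κ^α = 1/2` -/
theorem iter {κ C : ℝ} (hκ : 0 < κ) (hκ' : κ < 1 / 2) (hC : 0 ≤ C) :
    ∃ α K : ℝ, 0 < α ∧ α < 1 ∧ 1 ≤ K ∧ ∀ (S : Set E) (ε₀ : ℝ), IF S κ C ε₀ →
      ∀ p ∈ S, ∀ (r : ℝ) (e : E) (ε : ℝ), 0 < r → ‖e‖ = 1 → 0 < ε → ε ≤ ε₀ → FlatAt S p r e ε →
        ∃ ν : E, ‖ν‖ = 1 ∧ ‖ν - e‖ ≤ K * ε ∧ ∀ y ∈ S, dist y p < r →
          |⟪ν, y - p⟫| ≤ K * ε * ‖y - p‖ * (‖y - p‖ / r) ^ α := by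
  have hκ1 : κ < 1 := by linarith
  have hl2 : 0 < Real.log 2 := Real.log_pos (by norm_num)
  have hlκ : Real.log κ < -Real.log 2 := by
    have := Real.log_lt_log hκ hκ'
    rwa [one_div, Real.log_inv] at this
  have hlκ0 : 0 < -Real.log κ := by linarith
  set α : ℝ := Real.log 2 / (-Real.log κ) with hα
  have hα0 : 0 < α := div_pos hl2 hlκ0
  have hα1 : α < 1 := (div_lt_one hlκ0).2 (by linarith)
  have hκα : κ ^ α = 1 / 2 := by
    rw [Real.rpow_def_of_pos hκ, hα]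
    have : Real.log κ * (Real.log 2 / -Real.log κ) = -Real.log 2 := by
      have : Real.log κ ≠ 0 := by linarith
      field_simp
    rw [this, Real.exp_neg, Real.exp_log (by norm_num), one_div]
  have hik : 2 < 1 / κ := by
    rw [lt_div_iff₀ hκ]; linarith
  refine ⟨α, 2 * (1 / κ + 2 * C), hα0, hα1, by linarith, ?_⟩
  intro S ε₀ h p hp r e ε hr he hε hε₀ hf
  obtain ⟨u, hu0, hu, hd⟩ := it_seq hκ h hp hr he hε hε₀ hf
  have hd' : ∀ k, dist (u k) (u (k + 1)) ≤ 2 * C * ε / 2 / 2 ^ k := by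
    intro k
    rw [dist_comm, dist_eq_norm]
    refine (hd k).trans (le_of_eq ?_)
    ring
  obtain ⟨ν, hν⟩ := cauchySeq_tendsto_of_complete (cauchySeq_of_le_geometric_two hd')
  have hdist : ∀ k, ‖ν - u k‖ ≤ 2 * C * ε / 2 ^ k := by
    intro k
    rw [← dist_eq_norm, dist_comm]
    exact dist_le_of_le_geometric_two_of_tendsto hd' hν k
  have hν1 : ‖ν‖ = 1 := by
    have h1 : Tendsto (fun k => ‖u k‖) atTop (𝓝 ‖ν‖) := hν.norm
    have h2 : (fun k => ‖u k‖) = fun _ => (1 : ℝ) := funext fun k => (hu k).1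
    rw [h2] at h1
    exact tendsto_nhds_unique h1 tendsto_const_nhds
  refine ⟨ν, hν1, ?_, ?_⟩
  · have := hdist 0
    rw [hu0] at this
    simp only [pow_zero, div_one] at this
    nlinarith
  · intro y hy hyp
    rcases eq_or_ne y p with rfl | hne
    · simp
    have hpos : 0 < ‖y - p‖ := norm_pos_iff.2 (sub_ne_zero.2 hne)
    rw [dist_eq_norm] at hyp
    obtain ⟨k, hk1, hk2⟩ := it_scale hκ hκ1 (div_pos hpos hr) ((div_lt_one hr).2 hyp)
    have hA : |⟪u k, y - p⟫| ≤ ε / 2 ^ k * (κ ^ k * r) :=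
      (hu k).2 y hy (by rw [dist_eq_norm]; exact (div_lt_iff₀ hr).1 hk2)
    have hB : κ ^ k * r ≤ 1 / κ * ‖y - p‖ := by
      have := (le_div_iff₀ hr).1 hk1
      rw [one_div, inv_mul_eq_div, le_div_iff₀ hκ]
      calc κ ^ k * r * κ = κ ^ (k + 1) * r := by ring
        _ ≤ _ := this
    have hCC : |⟪ν - u k, y - p⟫| ≤ 2 * C * ε / 2 ^ k * ‖y - p‖ :=
      (abs_real_inner_le_norm _ _).trans (mul_le_mul_of_nonneg_right (hdist k) hpos.le)
    have hD : 1 / 2 ^ k ≤ 2 * (‖y - p‖ / r) ^ α := by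
      have h1 : (κ ^ (k + 1)) ^ α ≤ (‖y - p‖ / r) ^ α :=
        Real.rpow_le_rpow (by positivity) hk1 hα0.le
      have h2 : (κ ^ (k + 1)) ^ α = (1 / 2) ^ (k + 1) := by
        rw [← hκα, ← Real.rpow_natCast, ← Real.rpow_natCast, ← Real.rpow_mul hκ.le,
          ← Real.rpow_mul hκ.le, mul_comm]
      rw [h2] at h1
      calc (1 : ℝ) / 2 ^ k = 2 * (1 / 2) ^ (k + 1) := by
            rw [pow_succ, one_div_pow]; ring
        _ ≤ _ := by linarith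
    have hE : ⟪ν, y - p⟫ = ⟪u k, y - p⟫ + ⟪ν - u k, y - p⟫ := by
      rw [inner_sub_left]; ring
    have hK : 0 ≤ (1 / κ + 2 * C) * ε * ‖y - p‖ := by positivity
    calc |⟪ν, y - p⟫| ≤ |⟪u k, y - p⟫| + |⟪ν - u k, y - p⟫| := by rw [hE]; exact abs_add_le _ _
      _ ≤ ε / 2 ^ k * (1 / κ * ‖y - p‖) + 2 * C * ε / 2 ^ k * ‖y - p‖ :=
          add_le_add (hA.trans (mul_le_mul_of_nonneg_left hB (by positivity))) hCC
      _ = (1 / κ + 2 * C) * ε * ‖y - p‖ * (1 / 2 ^ k) := by ring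
      _ ≤ (1 / κ + 2 * C) * ε * ‖y - p‖ * (2 * (‖y - p‖ / r) ^ α) :=
          mul_le_mul_of_nonneg_left hD hK
      _ = _ := by ring

end Crest.Agent.R246.D
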