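import Crest.Agent.R246.D.Imp
import Crest.Agent.R246.D.Iter
import Crest.Agent.R246.D.Graph

/-! Row 246, block D: final statements (see `R246/Blueprint.lean`, `R246/D/Defs.lean`). -/

set_option autoImplicit false

open MeasureTheory Metric Filter Topology Set Module
open scoped RealInnerProductSpace

namespace Crest.Agent.R246

open D in
theorem stAll (hB : Bas) : All fun E => StAll E := by
  intro E _ _ _ _ _ d hE _ Θ hΘ
  obtain ⟨κ, C, ε₀, hκ, hκ', hC, hε₀, hI⟩ := imp (E := E) hB hE hΘ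
  obtain ⟨α, K, hα, hα1, hK, hT⟩ := iter (E := E) hκ hκ' hC
  obtain ⟨c, ε₁, hc, hc1, hε₁, hF⟩ := fill (E := E) hB hE
  have hK0 : 0 < K := by linarith
  obtain ⟨ε, hε, h1, h2, h3⟩ : ∃ ε : ℝ, 0 < ε ∧ 4 * ε ≤ ε₀ ∧ 80 * K * ε ≤ 1 ∧ 12 * K * ε ≤ ε₁ := by
    refine ⟨min (ε₀ / 4) (min (1 / (80 * K)) (ε₁ / (12 * K))), by positivity, ?_, ?_, ?_⟩
    · linarith [min_le_left (ε₀ / 4) (min (1 / (80 * K)) (ε₁ / (12 * K)))]
    · have := (min_le_right (ε₀ / 4) _).trans (min_le_left (1 / (80 * K)) (ε₁ / (12 * K)))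
      rw [le_div_iff₀ (by positivity)] at this
      linarith
    · have := (min_le_right (ε₀ / 4) _).trans (min_le_right (1 / (80 * K)) (ε₁ / (12 * K)))
      rw [le_div_iff₀ (by positivity)] at this
      linarith
  refine ⟨ε, hε, fun V hV hL p hp r e hr he hf => ?_⟩
  have hA : Al d Θ V := ⟨hV, hL⟩
  have key : ∀ q : E, ∃ ν : E, q ∈ V.fst.support → dist q p < r / 2 →
      ‖ν‖ = 1 ∧ ‖ν - e‖ ≤ K * (4 * ε) ∧ ∀ y ∈ V.fst.support, dist y q < r / 2 →
        |⟪ν, y - q⟫| ≤ K * (4 * ε) * ‖y - q‖ * (‖y - q‖ / (r / 2)) ^ α := by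
    intro q
    by_cases hq : q ∈ V.fst.support ∧ dist q p < r / 2
    · obtain ⟨ν, hν⟩ := hT _ ε₀ (hI V hA) q hq.1 (r / 2) e (4 * ε) (by positivity) he
        (by positivity) h1 fun y hy hyq => by
          have a1 := hf y hy (by linarith [dist_triangle y q p, hq.2])
          have a2 := hf q hq.1 (by linarith [hq.2])
          have a3 : ⟪e, y - q⟫ = ⟪e, y - p⟫ - ⟪e, q - p⟫ := by
            rw [← inner_sub_right]; congr 1; abel
          rw [a3]
          linarith [abs_sub ⟪e, y - p⟫ ⟪e, q - p⟫]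
      exact ⟨ν, fun _ _ => hν⟩
    · exact ⟨e, fun a b => (hq ⟨a, b⟩).elim⟩
  choose ν hν using key
  have hp0 : dist p p < r / 2 := by rw [dist_self]; positivity
  have hρ : c * (r / 2) ≤ r / 2 := by nlinarith
  have hnu : ∀ q ∈ V.fst.support, dist q p < r / 2 → ‖ν q - ν p‖ ≤ 8 * K * ε := fun q hq hqp => by
    have := norm_sub_le (ν q - e) (ν p - e)
    rw [sub_sub_sub_cancel_right] at this
    linarith [(hν q hq hqp).2.1, (hν p hp hp0).2.1]
  refine graph (ρ := c * (r / 2)) (α := α) (K := K * (4 * ε) / (r / 2) ^ α) (ν := ν)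
    Measure.isClosed_support hp (by positivity) hα hα1 (by positivity) (hν p hp hp0).1
    (fun q hq hqp => ⟨by linarith [hnu q hq (hqp.trans_le hρ)], fun y hy hyq => ?_⟩)
    fun q hq hqp x hx hx0 hxρ => ?_
  · refine ((hν q hq (hqp.trans_le hρ)).2.2 y hy (hyq.trans_le hρ)).trans (le_of_eq ?_)
    rw [Real.div_rpow (norm_nonneg _) (by positivity)]
    ring
  · have hs : ‖x‖ / c < r / 2 := by rw [div_lt_iff₀ hc]; linarith
    refine hF V (hA.mono hΘ.le) q hq (‖x‖ / c) (ν p) (by positivity) (hν p hp hp0).1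
      (fun y hy hyq => ?_) x hx (by field_simp)
    have b0 : ‖y - q‖ < ‖x‖ / c := by rwa [dist_eq_norm] at hyq
    have b1 := (hν q hq (hqp.trans_le hρ)).2.2 y hy (hyq.trans hs)
    have b2 : (‖y - q‖ / (r / 2)) ^ α ≤ 1 :=
      Real.rpow_le_one (by positivity) (by rw [div_le_one (by positivity)]; linarith) hα.le
    have b3 : ⟪ν p, y - q⟫ = ⟪ν q, y - q⟫ - ⟪ν q - ν p, y - q⟫ := by
      rw [inner_sub_left]; ring
    have b4 := (abs_real_inner_le_norm (ν q - ν p) (y - q)).trans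
      (mul_le_mul_of_nonneg_right (hnu q hq (hqp.trans_le hρ)) (norm_nonneg _))
    have b5 : K * (4 * ε) * ‖y - q‖ * (‖y - q‖ / (r / 2)) ^ α ≤ K * (4 * ε) * ‖y - q‖ :=
      mul_le_of_le_one_right (by positivity) b2
    have b6 : 12 * K * ε * ‖y - q‖ ≤ ε₁ * (‖x‖ / c) :=
      mul_le_mul h3 b0.le (norm_nonneg _) hε₁.le
    rw [b3]
    linarith [abs_sub ⟪ν q, y - q⟫ ⟪ν q - ν p, y - q⟫]

end Crest.Agent.R246
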