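import Crest.Agent.R246.D.Calc

/-! Row 246, block D: weighted monotonicity. -/

set_option autoImplicit false
set_option linter.unusedSectionVars false

open MeasureTheory Metric Filter Topology Set Module
open scoped RealInnerProductSpace ENNReal ContDiff Real

noncomputable section

namespace Crest.Agent.R246.D

variable {E : Type} [NormedAddCommGroup E] [InnerProductSpace ℝ E] [FiniteDimensional ℝ E]
  [MeasurableSpace E] [BorelSpace E]

theorem SV_mono {d : ℕ} {V : Measure (E × E)} {Θ Θ' : ℝ} (h : SV d V Θ) (hΘ : Θ ≤ Θ') :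
    SV d V Θ' := ⟨h.toSV0, fun p r hr => (h.upper p r hr).trans hΘ⟩

theorem Al.mono {d : ℕ} {V : Measure (E × E)} {Θ Θ' : ℝ} (h : Al d Θ V) (hΘ : Θ ≤ Θ') :
    Al d Θ' V := ⟨SV_mono h.toSV hΘ, h.low⟩

/-- domination by a Gaussian on the support -/
theorem integrable_of_le {d : ℕ} {V : Measure (E × E)} (h : SV0 d V) {F : E → ℝ}
    (hF : Continuous F) {K r : ℝ} {p : E} (hr : 0 < r)
    (hle : ∀ y ∈ V.fst.support, |F y| ≤ K * gk d p r y) : Integrable F V.fst := by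
  refine ((h.integ p r hr).const_mul K).mono' hF.aestronglyMeasurable ?_
  filter_upwards [Measure.support_mem_ae] with y hy
  exact hle y hy

theorem abs_integral_le {d : ℕ} {V : Measure (E × E)} (h : SV d V 2) {F : E → ℝ}
    {K r : ℝ} {p : E} (hr : 0 < r) (hK : 0 ≤ K)
    (hle : ∀ y ∈ V.fst.support, |F y| ≤ K * gk d p r y) : |∫ y, F y ∂V.fst| ≤ 2 * K := by
  have h1 : ‖∫ y, F y ∂V.fst‖ ≤ ∫ y, K * gk d p r y ∂V.fst := by
    refine norm_integral_le_of_norm_le ((h.integ p r hr).const_mul K) ?_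
    filter_upwards [Measure.support_mem_ae] with y hy
    exact hle y hy
  rw [integral_const_mul] at h1
  have h2 := mul_le_mul_of_nonneg_left (h.upper p r hr) hK
  unfold th at h2
  rw [Real.norm_eq_abs] at h1
  linarith

/-- continuous functions with compact support are integrable -/
theorem integrable_cs {d : ℕ} {V : Measure (E × E)} (h : SV0 d V) {F : E → ℝ}
    (hF : Continuous F) (hc : HasCompactSupport F) : Integrable F V.fst := by
  have hc' : HasCompactSupport fun y => F y / gk d 0 1 y := by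
    simp only [div_eq_mul_inv]
    exact hc.mul_right
  obtain ⟨K, hK⟩ := (hF.div (continuous_gk d 0 1)
    fun y => (gk_pos d 0 one_pos y).ne').bounded_above_of_compact_support hc'
  refine integrable_of_le h hF (K := K) (p := 0) one_pos fun y _ => ?_
  have := hK y
  rwa [Pi.div_apply, Real.norm_eq_abs, abs_div, abs_of_pos (gk_pos d 0 one_pos y),
    div_le_iff₀ (gk_pos d 0 one_pos y)] at this

/-- differentiation under the integral sign -/
theorem hasDerivAt_Ph {d : ℕ} {V : Measure (E × E)} (h : SV0 d V) {ζ : E → ℝ} {C : ℝ}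
    (hζ : Cut ζ C) {f : E → ℝ} (hf : Continuous f) (q : E) {r : ℝ} (hr : 0 < r) :
    HasDerivAt (Ph d ζ V.fst f q)
      (∫ y, f y * ζ y * ((-(d : ℝ) / r + ‖y - q‖ ^ 2 / r ^ 3) * gk d q r y) ∂V.fst) r := by
  have hc : HasCompactSupport fun y => f y * ζ y := hζ.hasCompactSupport.mul_left
  have hfz : Continuous fun y => f y * ζ y := hf.mul hζ.smooth.continuous
  obtain ⟨C0, hC0, h0⟩ := gk_poly (E := E) d 0 one_lt_two
  obtain ⟨C2, hC2, h2⟩ := gk_poly (E := E) d 2 one_lt_two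
  have hA : (0 : ℝ) ≤ (√(2 * π) * r)⁻¹ ^ d := by positivity
  have hb : ∀ s : ℝ, r / 2 ≤ s → ∀ y : E, gk d q (2 * s) y ≤ (√(2 * π) * r)⁻¹ ^ d := by
    intro s hs y
    have hs0 : 0 < s := by linarith
    have a1 : Real.exp (-‖y - q‖ ^ 2 / (2 * (2 * s) ^ 2)) ≤ 1 :=
      Real.exp_le_one_iff.2 (div_nonpos_of_nonpos_of_nonneg (by simp) (by positivity))
    have a2 : (√(2 * π) * (2 * s))⁻¹ ^ d ≤ (√(2 * π) * r)⁻¹ ^ d := by
      gcongr
      linarith
    exact (mul_le_of_le_one_right (by positivity) a1).trans a2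
  refine (hasDerivAt_integral_of_dominated_loc_of_deriv_le (μ := V.fst)
    (F := fun s y => f y * ζ y * gk d q s y)
    (F' := fun s y => f y * ζ y * ((-(d : ℝ) / s + ‖y - q‖ ^ 2 / s ^ 3) * gk d q s y))
    (bound := fun y => |f y * ζ y| * ((d * C0 + C2) * (√(2 * π) * r)⁻¹ ^ d * (2 / r)))
    (s := Ioi (r / 2)) (Ioi_mem_nhds (by linarith))
    (Eventually.of_forall fun s => (hfz.mul (continuous_gk d q s)).aestronglyMeasurable)
    (integrable_cs h (hfz.mul (continuous_gk d q r)) hc.mul_right)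
    (hfz.mul (Continuous.mul (by fun_prop) (continuous_gk d q r))).aestronglyMeasurable
    (Eventually.of_forall fun y s hs => ?_)
    ((integrable_cs h hfz hc).abs.mul_const _)
    (Eventually.of_forall fun y s hs => ?_)).2
  · have hs' : r / 2 < s := hs
    have hs0 : 0 < s := by linarith
    rw [norm_mul, Real.norm_eq_abs]
    refine mul_le_mul_of_nonneg_left ?_ (abs_nonneg _)
    have a0 := h0 q y s hs0
    have a2 := h2 q y s hs0
    have a3 := hb s hs'.le y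
    have a4 := gk_pos d q hs0 y
    rw [pow_zero, one_mul] at a0
    have e : (-(d : ℝ) / s + ‖y - q‖ ^ 2 / s ^ 3) * gk d q s y =
        (-(d * gk d q s y) + (‖y - q‖ / s) ^ 2 * gk d q s y) * (1 / s) := by
      field_simp
    rw [e, norm_mul, Real.norm_eq_abs, Real.norm_eq_abs, abs_of_pos (by positivity : 0 < 1 / s)]
    refine mul_le_mul ?_ (by rw [div_le_div_iff₀ hs0 hr]; linarith) (by positivity)
      (by positivity)
    have b0 : (d : ℝ) * gk d q s y ≤ d * (C0 * (√(2 * π) * r)⁻¹ ^ d) :=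
      mul_le_mul_of_nonneg_left (a0.trans (mul_le_mul_of_nonneg_left a3 hC0)) (by positivity)
    have b2 := a2.trans (mul_le_mul_of_nonneg_left a3 hC2)
    have b3 : 0 ≤ (d : ℝ) * gk d q s y := by positivity
    have b4 : 0 ≤ (‖y - q‖ / s) ^ 2 * gk d q s y := by positivity
    have b5 : 0 ≤ C2 * (√(2 * π) * r)⁻¹ ^ d := by positivity
    have b6 : 0 ≤ (d : ℝ) * (C0 * (√(2 * π) * r)⁻¹ ^ d) := by positivity
    rw [abs_le]
    constructor <;> nlinarith
  · have hs' : r / 2 < s := hs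
    exact (hasDerivAt_gk d q y (by linarith)).const_mul _

/-- the error term of the test field -/
theorem wma_err {ζ : E → ℝ} {C : ℝ} (hζ : Cut ζ C) (d : ℕ) : ∃ K : ℝ, 0 ≤ K ∧
    ∀ (q y w : E) (r : ℝ), ‖q‖ ≤ 1 / 4 → ‖w‖ = 1 → 0 < r → r ≤ 1 →
      (7 / 8 < ‖y‖ → divT (gradient ζ) (y, w) -
        2 * (⟪y - q, gradient ζ y⟫ - ⟪w, y - q⟫ * ⟪w, gradient ζ y⟫) / r ^ 2 = 0) ∧
      r * gk d q r y * |divT (gradient ζ) (y, w) -
        2 * (⟪y - q, gradient ζ y⟫ - ⟪w, y - q⟫ * ⟪w, gradient ζ y⟫) / r ^ 2| ≤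
        K * r ^ 3 * gk d q (2 * r) y := by
  obtain ⟨T, hT, h⟩ := gk_tail (E := E) d 4
  have hC := hζ.C_nonneg
  refine ⟨6 * C * (16 * T), by positivity, fun q y w r hq hw hr hr1 => ?_⟩
  have hz : ‖y‖ < 3 / 4 ∨ 7 / 8 < ‖y‖ → divT (gradient ζ) (y, w) -
      2 * (⟪y - q, gradient ζ y⟫ - ⟪w, y - q⟫ * ⟪w, gradient ζ y⟫) / r ^ 2 = 0 := fun hy => by
    rw [hζ.div_zero y w hy, hζ.grad_zero y hy]
    simp
  refine ⟨fun hy => hz (Or.inr hy), ?_⟩
  have hG := gk_pos d q hr y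
  have hG2 := gk_pos d q (show 0 < 2 * r by positivity) y
  by_cases hy : ‖y‖ < 3 / 4 ∨ 7 / 8 < ‖y‖
  · rw [hz hy, abs_zero, mul_zero]
    positivity
  push Not at hy
  have a1 : 1 / 2 ≤ ‖y - q‖ := by linarith [norm_sub_norm_le y q]
  have a2 : ‖y - q‖ ≤ 9 / 8 := by linarith [norm_sub_le y q]
  have a3 := h q y r (1 / 2) hr (by norm_num) a1
  have g1 := hζ.grad_le y
  have b1 : |⟪y - q, gradient ζ y⟫| ≤ 9 / 8 * C :=
    (abs_real_inner_le_norm _ _).trans (mul_le_mul a2 g1 (norm_nonneg _) (by norm_num))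
  have b2 : |⟪w, y - q⟫| ≤ 9 / 8 := by
    have := abs_real_inner_le_norm w (y - q)
    rw [hw, one_mul] at this
    linarith
  have b3 : |⟪w, gradient ζ y⟫| ≤ C := by
    have := abs_real_inner_le_norm w (gradient ζ y)
    rw [hw, one_mul] at this
    linarith
  have b4 : |⟪w, y - q⟫ * ⟪w, gradient ζ y⟫| ≤ 9 / 8 * C := by
    rw [abs_mul]
    exact mul_le_mul b2 b3 (abs_nonneg _) (by norm_num)
  have b5 : |2 * (⟪y - q, gradient ζ y⟫ - ⟪w, y - q⟫ * ⟪w, gradient ζ y⟫) / r ^ 2| ≤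
      5 * C / r ^ 2 := by
    rw [abs_div, abs_of_pos (by positivity : 0 < r ^ 2), abs_mul, abs_two]
    refine div_le_div_of_nonneg_right ?_ (by positivity)
    linarith [abs_sub ⟪y - q, gradient ζ y⟫ (⟪w, y - q⟫ * ⟪w, gradient ζ y⟫)]
  have b6 : C ≤ C / r ^ 2 := by
    rw [le_div_iff₀ (by positivity)]
    exact mul_le_of_le_one_right hC (pow_le_one₀ hr.le hr1)
  have b7 : |divT (gradient ζ) (y, w) -
      2 * (⟪y - q, gradient ζ y⟫ - ⟪w, y - q⟫ * ⟪w, gradient ζ y⟫) / r ^ 2| ≤ 6 * C / r ^ 2 := by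
    refine (abs_sub _ _).trans ?_
    have := hζ.div_le y w hw
    have e : 6 * C / r ^ 2 = C / r ^ 2 + 5 * C / r ^ 2 := by ring
    linarith
  calc _ ≤ r * (T * (r / (1 / 2)) ^ 4 * gk d q (2 * r) y) * (6 * C / r ^ 2) := by gcongr
    _ = _ := by field_simp; ring

theorem wma_fst {V : Measure (E × E)} {F : E → ℝ} (hF : Continuous F) :
    ∫ y, F y ∂V.fst = ∫ z, F z.1 ∂V :=
  integral_map measurable_fst.aemeasurable hF.aestronglyMeasurable

theorem wma_int {V : Measure (E × E)} {F : E → ℝ} (hF : Continuous F)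
    (h : Integrable F V.fst) : Integrable (fun z : E × E => F z.1) V :=
  (integrable_map_measure hF.aestronglyMeasurable measurable_fst.aemeasurable).1 h

theorem wma_supp (V : Measure (E × E)) : ∀ᵐ z ∂V, z.1 ∈ V.fst.support :=
  ae_of_ae_map measurable_fst.aemeasurable (p := fun y => y ∈ V.fst.support)
    Measure.support_mem_ae

theorem wma_cont {X : E → E} (hX : ContDiff ℝ 1 X) : Continuous (divT X) := by
  have h1 : Continuous (fderiv ℝ X) := hX.continuous_fderiv (by simp)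
  have h2 : Continuous (trc : (E →L[ℝ] E) → ℝ) :=
    ((LinearMap.trace ℝ E).comp (ContinuousLinearMap.coeLM ℝ)).continuous_of_finiteDimensional
  unfold divT
  exact (h2.comp (h1.comp continuous_fst)).sub
    (continuous_snd.inner ((h1.comp continuous_fst).clm_apply continuous_snd))

/-- `divT X` is integrable for compactly supported `C¹` fields -/
theorem wma_int_divT {d : ℕ} {V : Measure (E × E)} (h : SV0 d V) {X : E → E}
    (hX : ContDiff ℝ 1 X) (hc : HasCompactSupport X) : Integrable (divT X) V := by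
  have h1 : Continuous (fderiv ℝ X) := hX.continuous_fderiv (by simp)
  have h2 : Continuous (trc : (E →L[ℝ] E) → ℝ) :=
    ((LinearMap.trace ℝ E).comp (ContinuousLinearMap.coeLM ℝ)).continuous_of_finiteDimensional
  have hF : Continuous fun y => |trc (fderiv ℝ X y)| + ‖fderiv ℝ X y‖ :=
    (h2.comp h1).abs.add h1.norm
  have hc' : HasCompactSupport fun y => |trc (fderiv ℝ X y)| + ‖fderiv ℝ X y‖ :=
    (hc.fderiv (𝕜 := ℝ)).comp_left (g := fun A : E →L[ℝ] E => |trc A| + ‖A‖) (by simp [trc])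
  refine (wma_int hF (integrable_cs h hF hc')).mono' (wma_cont hX).aestronglyMeasurable ?_
  filter_upwards [h.unit] with z hz
  have a1 := abs_real_inner_le_norm z.2 (fderiv ℝ X z.1 z.2)
  have a2 := (fderiv ℝ X z.1).le_opNorm z.2
  rw [hz] at a1 a2
  rw [Real.norm_eq_abs]
  unfold divT
  linarith [abs_sub (trc (fderiv ℝ X z.1)) ⟪z.2, fderiv ℝ X z.1 z.2⟫]

/-- lower bound of the derivative: `divT_tf`, `Stat`; the error terms live on
`3/4 ≤ |y| ≤ 7/8`, where `1/2 ≤ |y - q| ≤ 9/8` (`gk_tail` with `k = 4`) -/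
theorem deriv_Ph_ge {d : ℕ} (hE : finrank ℝ E = d + 1) {ζ : E → ℝ} {C : ℝ} (hζ : Cut ζ C) :
    ∃ K : ℝ, 0 ≤ K ∧ ∀ V : Measure (E × E), SV d V 2 → ∀ (a : E) (c M : ℝ) (q : E), 0 ≤ M →
      ‖q‖ ≤ 1 / 4 → (∀ y ∈ V.fst.support, ‖y‖ < 1 → 0 ≤ ⟪a, y⟫ + c ∧ ⟪a, y⟫ + c ≤ M) →
      ∀ r, 0 < r → r ≤ 1 → -(K * M * r ^ 3) ≤
        ∫ y, (⟪a, y⟫ + c) * ζ y * ((-(d : ℝ) / r + ‖y - q‖ ^ 2 / r ^ 3) * gk d q r y) ∂V.fst := by
  obtain ⟨K, hK, h⟩ := wma_err hζ d
  refine ⟨2 * K, by positivity, fun V hV a c M q hM hq hf r hr hr1 => ?_⟩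
  have hcF : Continuous fun y =>
      (⟪a, y⟫ + c) * ζ y * ((-(d : ℝ) / r + ‖y - q‖ ^ 2 / r ^ 3) * gk d q r y) :=
    (Continuous.mul (by fun_prop) hζ.smooth.continuous).mul
      (Continuous.mul (by fun_prop) (continuous_gk d q r))
  have hiF := wma_int hcF (integrable_cs hV.toSV0 hcF hζ.hasCompactSupport.mul_left.mul_right)
  have hiG := wma_int (continuous_gk d q (2 * r)) (hV.integ q (2 * r) (by positivity))
  have hiX := wma_int_divT hV.toSV0 (contDiff_tf hζ d a c q r) (hasCompactSupport_tf hζ d a c q r)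
  have h1 : ∫ z, (r * divT (tf d ζ a c q r) z - M * (K * r ^ 3) * gk d q (2 * r) z.1) ∂V ≤
      ∫ z, (⟪a, z.1⟫ + c) * ζ z.1 *
        ((-(d : ℝ) / r + ‖z.1 - q‖ ^ 2 / r ^ 3) * gk d q r z.1) ∂V := by
    refine integral_mono_ae ((hiX.const_mul _).sub (hiG.const_mul _)) hiF ?_
    filter_upwards [hV.unit, wma_supp V] with z hz hs
    obtain ⟨y, w⟩ := z
    obtain ⟨a1, a2⟩ := h q y w r hq hz hr hr1
    have hG := gk_pos d q hr y
    have hG2 := gk_pos d q (show 0 < 2 * r by positivity) y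
    simp only
    rw [divT_tf hζ hE a c q hr y hz]
    by_cases hy : 7 / 8 < ‖y‖
    · rw [a1 hy, hζ.zero y hy.le]
      have : 0 ≤ M * (K * r ^ 3) * gk d q (2 * r) y := by positivity
      simp only [zero_mul, mul_zero, add_zero]
      linarith
    obtain ⟨f0, f1⟩ := hf y hs (by linarith)
    have hz0 := hζ.nonneg y
    generalize divT (gradient ζ) (y, w) -
      2 * (⟪y - q, gradient ζ y⟫ - ⟪w, y - q⟫ * ⟪w, gradient ζ y⟫) / r ^ 2 = B at a2 ⊢
    have b1 : (⟪a, y⟫ + c) * (r * gk d q r y * B) ≤ M * (K * r ^ 3 * gk d q (2 * r) y) := by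
      refine (mul_le_mul_of_nonneg_left (mul_le_mul_of_nonneg_left (le_abs_self B)
        (by positivity)) f0).trans ?_
      exact mul_le_mul f1 a2 (by positivity) hM
    have b2 : 0 ≤ (⟪a, y⟫ + c) * ζ y * gk d q r y * (⟪w, y - q⟫ ^ 2 / r ^ 3) := by positivity
    have e : (⟪a, y⟫ + c) * ζ y * ((-(d : ℝ) / r + ‖y - q‖ ^ 2 / r ^ 3) * gk d q r y) =
        r * ((⟪a, y⟫ + c) * gk d q r y *
          (B + ζ y * (-(d : ℝ) / r ^ 2 + (‖y - q‖ ^ 2 - ⟪w, y - q⟫ ^ 2) / r ^ 4))) -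
        (⟪a, y⟫ + c) * (r * gk d q r y * B) +
        (⟪a, y⟫ + c) * ζ y * gk d q r y * (⟪w, y - q⟫ ^ 2 / r ^ 3) := by
      field_simp
      ring
    rw [e]
    linarith
  rw [integral_sub (hiX.const_mul _) (hiG.const_mul _), integral_const_mul, integral_const_mul,
    hV.stat _ (contDiff_tf hζ d a c q r) (hasCompactSupport_tf hζ d a c q r),
    ← wma_fst (continuous_gk d q (2 * r))] at h1
  rw [wma_fst hcF]
  have h2 := mul_le_mul_of_nonneg_left (hV.upper q (2 * r) (by positivity))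
    (show 0 ≤ M * (K * r ^ 3) by positivity)
  unfold th at h2
  linarith

/-- almost monotonicity for non-negative affine weights -/
theorem wm {d : ℕ} (hE : finrank ℝ E = d + 1) {ζ : E → ℝ} {C : ℝ} (hζ : Cut ζ C) :
    ∃ K : ℝ, 0 ≤ K ∧ ∀ V : Measure (E × E), SV d V 2 → ∀ (a : E) (c M : ℝ) (q : E), 0 ≤ M →
      ‖q‖ ≤ 1 / 4 → (∀ y ∈ V.fst.support, ‖y‖ < 1 → 0 ≤ ⟪a, y⟫ + c ∧ ⟪a, y⟫ + c ≤ M) →
      ∀ r₁ r₂, 0 < r₁ → r₁ ≤ r₂ → r₂ ≤ 1 →
        Ph d ζ V.fst (fun y => ⟪a, y⟫ + c) q r₁ ≤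
          Ph d ζ V.fst (fun y => ⟪a, y⟫ + c) q r₂ + K * M * r₂ ^ 4 := by
  obtain ⟨K, hK, h⟩ := deriv_Ph_ge hE hζ
  refine ⟨K, hK, fun V hV a c M q hM hq hf r₁ r₂ h1 h12 h2 => ?_⟩
  have hd : ∀ r, 0 < r → HasDerivAt
      (fun s => Ph d ζ V.fst (fun y => ⟪a, y⟫ + c) q s + K * M * s ^ 4 / 4)
      ((∫ y, (⟪a, y⟫ + c) * ζ y * ((-(d : ℝ) / r + ‖y - q‖ ^ 2 / r ^ 3) * gk d q r y) ∂V.fst) +
        K * M * r ^ 3) r := fun r hr => by
    refine (hasDerivAt_Ph hV.toSV0 hζ (f := fun y => ⟪a, y⟫ + c) (by fun_prop) q hr).add ?_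
    refine (((hasDerivAt_pow 4 r).const_mul (K * M)).div_const 4).congr_deriv ?_
    push_cast
    ring
  have hm : MonotoneOn (fun s => Ph d ζ V.fst (fun y => ⟪a, y⟫ + c) q s + K * M * s ^ 4 / 4)
      (Icc r₁ r₂) := by
    refine monotoneOn_of_deriv_nonneg (convex_Icc _ _)
      (fun r hr => (hd r (h1.trans_le hr.1)).continuousAt.continuousWithinAt)
      (fun r hr => (hd r (h1.trans_le (interior_subset hr).1)).differentiableAt.differentiableWithinAt)
      fun r hr => ?_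
    have hr' := interior_subset hr
    rw [(hd r (h1.trans_le hr'.1)).deriv]
    linarith [h V hV a c M q hM hq hf r (h1.trans_le hr'.1) (hr'.2.trans h2)]
  have h3 := hm (left_mem_Icc.2 h12) (right_mem_Icc.2 h12) h12
  have h4 : 0 ≤ K * M * r₁ ^ 4 := by positivity
  have h5 : 0 ≤ K * M * r₂ ^ 4 := by have : 0 < r₂ := by linarith
                                     positivity
  simp only at h3
  linarith

theorem wmb_int {d : ℕ} {V : Measure (E × E)} (h : SV0 d V) {ζ : E → ℝ} {C : ℝ} (hζ : Cut ζ C)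
    {f : E → ℝ} (hf : Continuous f) (q : E) (r : ℝ) :
    Integrable (fun y => f y * ζ y * gk d q r y) V.fst :=
  integrable_cs h ((hf.mul hζ.smooth.continuous).mul (continuous_gk d q r))
    hζ.hasCompactSupport.mul_left.mul_right

/-- linearity of `Ph` in the weight -/
theorem wmb_lin {d : ℕ} {V : Measure (E × E)} (h : SV0 d V) {ζ : E → ℝ} {C : ℝ} (hζ : Cut ζ C)
    {f g : E → ℝ} (hf : Continuous f) {s t : ℝ} (hg : ∀ y, g y = s * f y + t) (q : E) (r : ℝ) :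
    Ph d ζ V.fst g q r = s * Ph d ζ V.fst f q r + t * Ph d ζ V.fst (fun _ => 1) q r := by
  unfold Ph
  rw [← integral_const_mul, ← integral_const_mul, ← integral_add
    ((wmb_int h hζ hf q r).const_mul s) ((wmb_int h hζ continuous_const q r).const_mul t)]
  refine integral_congr_ae (Eventually.of_forall fun y => ?_)
  simp only [hg]
  ring

/-- the cutoff changes the density ratio by `O(r⁴)` (`gk_tail`) -/
theorem Ph_one {d : ℕ} {ζ : E → ℝ} {C : ℝ} (hζ : Cut ζ C) :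
    ∃ K : ℝ, 0 ≤ K ∧ ∀ V : Measure (E × E), SV d V 2 → ∀ (q : E) (r : ℝ), ‖q‖ ≤ 1 / 4 → 0 < r →
      Ph d ζ V.fst (fun _ => 1) q r ≤ th d V.fst q r ∧
        th d V.fst q r ≤ Ph d ζ V.fst (fun _ => 1) q r + K * r ^ 4 := by
  obtain ⟨T, hT, h⟩ := gk_tail (E := E) d 4
  refine ⟨2 * (16 * T), by positivity, fun V hV q r hq hr => ?_⟩
  have hi := wmb_int hV.toSV0 hζ (f := fun _ => 1) continuous_const q r
  have e : th d V.fst q r - Ph d ζ V.fst (fun _ => 1) q r =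
      ∫ y, (gk d q r y - 1 * ζ y * gk d q r y) ∂V.fst :=
    (integral_sub (hV.integ q r hr) hi).symm
  have h0 : ∀ y, 0 ≤ gk d q r y - 1 * ζ y * gk d q r y := fun y => by
    nlinarith [gk_pos d q hr y, hζ.le_one y]
  have h1 := abs_integral_le hV (F := fun y => gk d q r y - 1 * ζ y * gk d q r y)
    (K := 16 * T * r ^ 4) (p := q) (show 0 < 2 * r by positivity) (by positivity) fun y _ => by
      rw [abs_of_nonneg (h0 y)]
      have hG := gk_pos d q (show 0 < 2 * r by positivity) y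
      by_cases hy : ‖y‖ ≤ 3 / 4
      · rw [hζ.one y hy, one_mul, one_mul, sub_self]
        positivity
      · have a1 := h q y r (1 / 2) hr (by norm_num) (by linarith [norm_sub_norm_le y q])
        have a2 : 0 ≤ ζ y * gk d q r y := mul_nonneg (hζ.nonneg y) (gk_pos d q hr y).le
        have a3 : T * (r / (1 / 2)) ^ 4 = 16 * T * r ^ 4 := by ring
        rw [a3] at a1
        linarith
  have h2 : 0 ≤ ∫ y, (gk d q r y - 1 * ζ y * gk d q r y) ∂V.fst := integral_nonneg h0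
  rw [← e] at h1 h2
  constructor <;> linarith [le_abs_self (th d V.fst q r - Ph d ζ V.fst (fun _ => 1) q r)]

/-- two-sided version: `wm` for `M ± f`, `Ph_one` -/
theorem wm2 {d : ℕ} (hE : finrank ℝ E = d + 1) {ζ : E → ℝ} {C : ℝ} (hζ : Cut ζ C) :
    ∃ K : ℝ, 0 ≤ K ∧ ∀ V : Measure (E × E), SV d V 2 → ∀ (a : E) (c M : ℝ) (q : E), 0 ≤ M →
      ‖q‖ ≤ 1 / 4 → (∀ y ∈ V.fst.support, ‖y‖ < 1 → |⟪a, y⟫ + c| ≤ M) →
      ∀ r₁ r₂, 0 < r₁ → r₁ ≤ r₂ → r₂ ≤ 1 →
        |Ph d ζ V.fst (fun y => ⟪a, y⟫ + c) q r₂ - Ph d ζ V.fst (fun y => ⟪a, y⟫ + c) q r₁| ≤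
          M * (th d V.fst q r₂ - th d V.fst q r₁ + K * r₂ ^ 4) := by
  obtain ⟨K, hK, h⟩ := wm hE hζ
  obtain ⟨K', hK', h'⟩ := Ph_one (d := d) hζ
  refine ⟨2 * K + K', by positivity, fun V hV a c M q hM hq hf r₁ r₂ h1 h12 h2 => ?_⟩
  have a1 := h V hV a (c + M) (2 * M) q (by positivity) hq (fun y hy hy' => by
    have := abs_le.1 (hf y hy hy')
    constructor <;> linarith [this.1, this.2]) r₁ r₂ h1 h12 h2
  have a2 := h V hV (-a) (-c + M) (2 * M) q (by positivity) hq (fun y hy hy' => by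
    have := abs_le.1 (hf y hy hy')
    rw [inner_neg_left]
    constructor <;> linarith [this.1, this.2]) r₁ r₂ h1 h12 h2
  have hc : Continuous fun y : E => ⟪a, y⟫ + c := by fun_prop
  have e1 := wmb_lin hV.toSV0 hζ hc (g := fun y => ⟪a, y⟫ + (c + M)) (s := 1) (t := M)
    (fun y => by ring) q
  have e2 := wmb_lin hV.toSV0 hζ hc (g := fun y => ⟪-a, y⟫ + (-c + M)) (s := -1) (t := M)
    (fun y => by rw [inner_neg_left]; ring) q
  rw [e1, e1] at a1
  rw [e2, e2] at a2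
  have b1 := mul_le_mul_of_nonneg_left (h' V hV q r₂ hq (by linarith)).1 hM
  have b2 := mul_le_mul_of_nonneg_left (h' V hV q r₁ hq h1).2 hM
  have b3 : M * (K' * r₁ ^ 4) ≤ M * (K' * r₂ ^ 4) := by gcongr
  rw [abs_le]
  constructor <;> nlinarith

/-- mean value inequality: `|f y ζ y - f q| ≤ L |y - q|`, `gk_poly` (`k = 1`), `wm`, `r₁ → 0` -/
theorem mean_value {d : ℕ} (hE : finrank ℝ E = d + 1) {ζ : E → ℝ} {C : ℝ} (hζ : Cut ζ C) :
    ∃ K : ℝ, 0 ≤ K ∧ ∀ V : Measure (E × E), Al d 2 V → ∀ (a : E) (c M : ℝ) (q : E), 0 ≤ M →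
      ‖q‖ ≤ 1 / 4 → (∀ y ∈ V.fst.support, ‖y‖ < 1 → 0 ≤ ⟪a, y⟫ + c ∧ ⟪a, y⟫ + c ≤ M) →
      q ∈ V.fst.support → ∀ R, 0 < R → R ≤ 1 →
        ⟪a, q⟫ + c ≤ Ph d ζ V.fst (fun y => ⟪a, y⟫ + c) q R + K * M * R ^ 4 := by
  obtain ⟨K, hK, h⟩ := wm hE hζ
  obtain ⟨T, hT, hp⟩ := gk_poly (E := E) d 1 one_lt_two
  refine ⟨K, hK, fun V hV a c M q hM hq hf hqS R hR hR1 => ?_⟩
  obtain ⟨f0, f1⟩ := hf q hqS (by linarith)
  have hL : ∀ y : E, |(⟪a, y⟫ + c) * ζ y - (⟪a, q⟫ + c)| ≤ (‖a‖ + 2 * M) * ‖y - q‖ := by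
    intro y
    have a1 : |⟪a, y⟫ - ⟪a, q⟫| ≤ ‖a‖ * ‖y - q‖ := by
      rw [← inner_sub_right]; exact abs_real_inner_le_norm _ _
    have a2 : (1 - ζ y) * (⟪a, q⟫ + c) ≤ 2 * M * ‖y - q‖ := by
      by_cases hy : ‖y‖ ≤ 3 / 4
      · rw [hζ.one y hy, sub_self, zero_mul]
        positivity
      · have : 1 / 2 ≤ ‖y - q‖ := by linarith [norm_sub_norm_le y q]
        nlinarith [hζ.nonneg y]
    have a3 : 0 ≤ (1 - ζ y) * (⟪a, q⟫ + c) := mul_nonneg (by linarith [hζ.le_one y]) f0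
    have a4 : |ζ y * (⟪a, y⟫ - ⟪a, q⟫)| ≤ ‖a‖ * ‖y - q‖ := by
      rw [abs_mul, abs_of_nonneg (hζ.nonneg y)]
      exact (mul_le_of_le_one_left (abs_nonneg _) (hζ.le_one y)).trans a1
    have e : (⟪a, y⟫ + c) * ζ y - (⟪a, q⟫ + c) =
        ζ y * (⟪a, y⟫ - ⟪a, q⟫) - (1 - ζ y) * (⟪a, q⟫ + c) := by ring
    rw [e]
    refine (abs_sub _ _).trans ?_
    rw [abs_of_nonneg a3]
    linarith
  have key : ∀ r, 0 < r → r ≤ R → ⟪a, q⟫ + c ≤
      Ph d ζ V.fst (fun y => ⟪a, y⟫ + c) q R + K * M * R ^ 4 + 2 * ((‖a‖ + 2 * M) * T) * r := by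
    intro r hr hrR
    have a1 := h V hV.toSV a c M q hM hq hf r R hr hrR hR1
    have a2 := abs_integral_le hV.toSV
      (F := fun y => (⟪a, y⟫ + c) * ζ y * gk d q r y - (⟪a, q⟫ + c) * gk d q r y)
      (K := (‖a‖ + 2 * M) * T * r) (p := q) (show 0 < 2 * r by positivity) (by positivity)
      fun y _ => by
        have b1 := hp q y r hr
        rw [pow_one, div_mul_eq_mul_div, div_le_iff₀ hr] at b1
        rw [← sub_mul, abs_mul, abs_of_pos (gk_pos d q hr y)]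
        refine (mul_le_mul_of_nonneg_right (hL y) (gk_pos d q hr y).le).trans ?_
        have := mul_le_mul_of_nonneg_left b1 (show 0 ≤ ‖a‖ + 2 * M by positivity)
        linarith
    rw [integral_sub (wmb_int hV.toSV0 hζ (f := fun y => ⟪a, y⟫ + c) (by fun_prop) q r)
      ((hV.integ q r hr).const_mul _), integral_const_mul] at a2
    have a3 := mul_le_mul_of_nonneg_left (hV.low q hqS r hr) f0
    have a4 := (abs_le.1 a2).1
    unfold th at a3
    unfold Ph at a1 ⊢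
    linarith
  refine le_of_forall_pos_le_add fun η hη => ?_
  have hB : 0 < 2 * ((‖a‖ + 2 * M) * T) + 1 := by positivity
  have a1 := key (min R (η / (2 * ((‖a‖ + 2 * M) * T) + 1))) (by positivity) (min_le_left _ _)
  have a2 := min_le_right R (η / (2 * ((‖a‖ + 2 * M) * T) + 1))
  rw [le_div_iff₀ hB] at a2
  have a3 : 0 < min R (η / (2 * ((‖a‖ + 2 * M) * T) + 1)) := by positivity
  nlinarith

end Crest.Agent.R246.D
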